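import Vale.Agent.P037.Main

namespace Vale.Agent.P037

variable {T : ℕ}

theorem zhit_pair {κ κ' : Clr T} {x r : Cls T} {l l' m m' : Lbl T} (a : Bool) (hne : κ ≠ κ')
    (h1 : Zhit κ x l = true) (h2 : Zhit κ' x l = true)
    (hr : ∀ b c, r ≠ .O b c ∨ b ≠ a) :
    ent r l' (.O a κ) m = ent r l' (.O a κ') m' := by
  rcases Zhit_two hne h1 h2 with ⟨rfl, rfl⟩ | ⟨rfl, rfl⟩
  · exact star_circ r l' m m' a hr
  · exact (star_circ r l' m' m a hr).symm

theorem case_left {κ : Clr T} {r0 r2 r4 c0 c1 : Cls T} {l0 l2 l4 m0 m1 m2 : Lbl T}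
    (hr2 : isRow r2) (k0 : region r0 ≤ 3) (k4 : 3 ≤ region r4)
    (k01 : region c0 ≤ region c1) (k12 : region c1 ≤ 1)
    (h00 : ent r0 l0 c0 m0 = true) (h01 : ent r0 l0 c1 m1 = true)
    (h02 : ent r0 l0 (.O false κ) m2 = true)
    (h20 : ent r2 l2 c0 m0 = true) (h21 : ent r2 l2 c1 m1 = true)
    (h22 : ent r2 l2 (.O false κ) m2 = false)
    (h40 : ent r4 l4 c0 m0 = false) (h41 : ent r4 l4 c1 m1 = true) : False := by
  have hc1 : c1 = .OU false ∨ ∃ κ1, c1 = .O false κ1 := by
    rcases c1 with (_ | _) | ⟨(_ | _), κ⟩ | (_ | _) | _ | _ | _ <;>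
      first
      | exact Or.inl rfl
      | exact Or.inr ⟨_, rfl⟩
      | (exfalso; simp only [rOUf, rOUt, rOf, rOt, rIf, rIt, rB, rX, rM] at k12; omega)
  have hc0 : c0 = .OU false ∨ ∃ κ1, c0 = .O false κ1 := by
    have k02 : region c0 ≤ 1 := by omega
    rcases c0 with (_ | _) | ⟨(_ | _), κ⟩ | (_ | _) | _ | _ | _ <;>
      first
      | exact Or.inl rfl
      | exact Or.inr ⟨_, rfl⟩
      | (exfalso; simp only [rOUf, rOUt, rOf, rOt, rIf, rIt, rB, rX, rM] at k02; omega)
  rcases hc1 with rfl | ⟨κ1, rfl⟩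
  · rcases hc0 with rfl | ⟨κ0, rfl⟩
    · rw [ent_col_nc rfl l4 m0 m1, h41] at h40
      cases h40
    · simp only [rOUf, rOUt, rOf, rOt, rIf, rIt, rB, rX, rM] at k01; omega
  · rw [ent_row_O hr2] at h21 h22
    rcases hc0 with rfl | ⟨κ0, rfl⟩
    · have row0 : isRow r0 := by
        have hcore : isCore r0 = true := by
          rcases r0 with (_ | _) | ⟨(_ | _), κ⟩ | (_ | _) | _ | _ | _ <;>
            first
            | rfl
            | (exfalso; simp [ent] at h00; done)
            | (exfalso; simp [ent] at h02; done)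
        exact isRow_of_ent hcore h00
      rw [ent_row_O row0] at h01 h02
      have := lemZ h01 h21 h02
      rw [h22] at this
      cases this
    · rw [ent_row_O hr2] at h20
      have hne : κ0 ≠ κ1 := by
        rintro rfl
        rw [ent_col_nc rfl l4 m0 m1, h41] at h40
        cases h40
      have := zhit_pair (r := r4) (l' := l4) (m := m0) (m' := m1) false hne h20 h21 (by
        intro b c
        by_contra hc
        push Not at hc
        obtain ⟨rfl, rfl⟩ := hc
        simp only [rOUf, rOUt, rOf, rOt, rIf, rIt, rB, rX, rM] at k4; omega)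
      rw [h40, h41] at this
      cases this

theorem case_right {κ : Clr T} {r0 r2 r4 c3 c4 : Cls T} {l0 l2 l4 m2 m3 m4 : Lbl T}
    (hr2 : isRow r2) (k0 : region r0 ≤ 3) (k4 : 3 ≤ region r4)
    (k34 : region c3 ≤ region c4) (k23 : 5 ≤ region c3)
    (h42 : ent r4 l4 (.O true κ) m2 = true) (h43 : ent r4 l4 c3 m3 = true)
    (h44 : ent r4 l4 c4 m4 = true)
    (h22 : ent r2 l2 (.O true κ) m2 = false) (h23 : ent r2 l2 c3 m3 = true)
    (h24 : ent r2 l2 c4 m4 = true)
    (h03 : ent r0 l0 c3 m3 = true) (h04 : ent r0 l0 c4 m4 = false) : False := by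
  have hc3 : c3 = .OU true ∨ ∃ κ1, c3 = .O true κ1 := by
    rcases c3 with (_ | _) | ⟨(_ | _), κ⟩ | (_ | _) | _ | _ | _ <;>
      first
      | exact Or.inl rfl
      | exact Or.inr ⟨_, rfl⟩
      | (exfalso; simp only [rOUf, rOUt, rOf, rOt, rIf, rIt, rB, rX, rM] at k23; omega)
  have hc4 : c4 = .OU true ∨ ∃ κ1, c4 = .O true κ1 := by
    have k24 : 5 ≤ region c4 := by omega
    rcases c4 with (_ | _) | ⟨(_ | _), κ⟩ | (_ | _) | _ | _ | _ <;>
      first
      | exact Or.inl rfl
      | exact Or.inr ⟨_, rfl⟩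
      | (exfalso; simp only [rOUf, rOUt, rOf, rOt, rIf, rIt, rB, rX, rM] at k24; omega)
  rcases hc3 with rfl | ⟨κ3, rfl⟩
  · rcases hc4 with rfl | ⟨κ4, rfl⟩
    · rw [ent_col_nc rfl l0 m4 m3, h03] at h04
      cases h04
    · simp only [rOUf, rOUt, rOf, rOt, rIf, rIt, rB, rX, rM] at k34; omega
  · rw [ent_row_O hr2] at h23 h22
    rcases hc4 with rfl | ⟨κ4, rfl⟩
    · have row4 : isRow r4 := by
        have hcore : isCore r4 = true := by
          rcases r4 with (_ | _) | ⟨(_ | _), κ⟩ | (_ | _) | _ | _ | _ <;>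
            first
            | rfl
            | (exfalso; simp [ent] at h44; done)
            | (exfalso; simp [ent] at h42; done)
        exact isRow_of_ent hcore h44
      rw [ent_row_O row4] at h42 h43
      have := lemZ h43 h23 h42
      rw [h22] at this
      cases this
    · rw [ent_row_O hr2] at h24
      have hne : κ4 ≠ κ3 := by
        rintro rfl
        rw [ent_col_nc rfl l0 m4 m3, h03] at h04
        cases h04
      have := zhit_pair (r := r0) (l' := l0) (m := m4) (m' := m3) true hne h24 h23 (by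
        intro b c
        by_contra hc
        push Not at hc
        obtain ⟨rfl, rfl⟩ := hc
        simp only [rOUf, rOUt, rOf, rOt, rIf, rIt, rB, rX, rM] at k0; omega)
      rw [h04, h03] at this
      cases this

theorem see_two {κ κ' : Clr T} (a : Bool) {y : Cls T} {l l' m : Lbl T} (hne : κ ≠ κ')
    (h1 : ent (.O a κ) l y m = true) (h2 : ent (.O a κ') l' y m = true) :
    isCore y = true := by
  cases y with
  | O b κ'' =>
    simp [ent] at h1 h2
    exact absurd (h1.2.trans h2.2.symm) hne
  | B a s => rfl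
  | X => rfl
  | M => rfl
  | _ => simp [ent] at h1

theorem case_top {κ3 : Clr T} {r0 r1 r4 c0 c1 c2 c3 c4 : Cls T}
    {l0 l1 l2 l4 m0 m1 m2 m3 m4 : Lbl T}
    (k01 : region r0 ≤ region r1) (k12 : region r1 ≤ 1)
    (c12 : region c1 ≤ region c2) (c23 : region c2 ≤ region c3)
    (h00 : ent r0 l0 c0 m0 = true) (h01 : ent r0 l0 c1 m1 = true)
    (h02 : ent r0 l0 c2 m2 = true) (h04 : ent r0 l0 c4 m4 = false)
    (h10 : ent r1 l1 c0 m0 = true) (h11 : ent r1 l1 c1 m1 = true)
    (h12 : ent r1 l1 c2 m2 = true) (h13 : ent r1 l1 c3 m3 = true)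
    (h14 : ent r1 l1 c4 m4 = true)
    (h20 : ent (.O false κ3) l2 c0 m0 = true) (h21 : ent (.O false κ3) l2 c1 m1 = true)
    (h22 : ent (.O false κ3) l2 c2 m2 = false) (h23 : ent (.O false κ3) l2 c3 m3 = true)
    (h24 : ent (.O false κ3) l2 c4 m4 = true)
    (h40 : ent r4 l4 c0 m0 = false) (h41 : ent r4 l4 c1 m1 = true) : False := by
  have hr1 : r1 = .OU false ∨ ∃ κ, r1 = .O false κ := by
    rcases r1 with (_ | _) | ⟨(_ | _), κ⟩ | (_ | _) | _ | _ | _ <;>
      first
      | exact Or.inl rfl
      | exact Or.inr ⟨_, rfl⟩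
      | (exfalso; simp only [rOUf, rOUt, rOf, rOt, rIf, rIt, rB, rX, rM] at k12; omega)
  have hr0 : r0 = .OU false ∨ ∃ κ, r0 = .O false κ := by
    have k02 : region r0 ≤ 1 := by omega
    rcases r0 with (_ | _) | ⟨(_ | _), κ⟩ | (_ | _) | _ | _ | _ <;>
      first
      | exact Or.inl rfl
      | exact Or.inr ⟨_, rfl⟩
      | (exfalso; simp only [rOUf, rOUt, rOf, rOt, rIf, rIt, rB, rX, rM] at k02; omega)
  rcases hr1 with rfl | ⟨κ2, rfl⟩
  · rcases hr0 with rfl | ⟨κ1, rfl⟩
    · rw [ent_row_nc rfl l0 l1, h14] at h04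
      cases h04
    · simp only [rOUf, rOUt, rOf, rOt, rIf, rIt, rB, rX, rM] at k01; omega
  · have n23 : κ2 ≠ κ3 := by
      rintro rfl
      rw [ent_row_nc rfl l2 l1, h12] at h22
      cases h22
    have g0 := see_two false n23 h10 h20
    have g1 := see_two false n23 h11 h21
    have g3 := see_two false n23 h13 h23
    have g4 := see_two false n23 h14 h24
    have e1 := region_core g1
    have e3 := region_core g3
    have g2 : isCore c2 = true := core_of_region (by omega)
    rcases hr0 with rfl | ⟨κ1, rfl⟩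
    · rw [ent_OU_core g4] at h04
      cases h04
    · have n12 : κ1 ≠ κ2 := by
        rintro rfl
        rw [ent_row_nc rfl l0 l1, h14] at h04
        cases h04
      have n13 : κ1 ≠ κ3 := by
        rintro rfl
        rw [ent_row_nc rfl l0 l2, h24] at h04
        cases h04
      rw [ent_O_core g0] at h00 h10 h20
      rw [ent_O_core g1] at h01 h11 h21
      rw [ent_O_core g2] at h02 h12 h22
      rw [ent_O_core g4] at h04 h14 h24
      refine colour n12 n13 n23 h00 h10 h20 h01 h11 h21 h02 h12 h22 h14 h24 h04 ?_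
      intro s s' hs hs' e e'
      subst e e'
      have : s' = s := Fin.ext (by omega)
      subst this
      have hag : agree s'.val m0 m1 = true := by
        rw [agree_iff]
        intro j hj
        omega
      rw [ent_col_congr hag, h41] at h40
      cases h40

theorem case_bot {κ3 : Clr T} {r0 r3 r4 c0 c1 c2 c3 c4 : Cls T}
    {l0 l2 l3 l4 m0 m1 m2 m3 m4 : Lbl T}
    (k34 : region r3 ≤ region r4) (k23 : 5 ≤ region r3)
    (c12 : region c1 ≤ region c2) (c23 : region c2 ≤ region c3)
    (h40 : ent r4 l4 c0 m0 = false) (h42 : ent r4 l4 c2 m2 = true)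
    (h43 : ent r4 l4 c3 m3 = true) (h44 : ent r4 l4 c4 m4 = true)
    (h30 : ent r3 l3 c0 m0 = true) (h31 : ent r3 l3 c1 m1 = true)
    (h32 : ent r3 l3 c2 m2 = true) (h33 : ent r3 l3 c3 m3 = true)
    (h34 : ent r3 l3 c4 m4 = true)
    (h20 : ent (.O true κ3) l2 c0 m0 = true) (h21 : ent (.O true κ3) l2 c1 m1 = true)
    (h22 : ent (.O true κ3) l2 c2 m2 = false) (h23 : ent (.O true κ3) l2 c3 m3 = true)
    (h24 : ent (.O true κ3) l2 c4 m4 = true)
    (h03 : ent r0 l0 c3 m3 = true) (h04 : ent r0 l0 c4 m4 = false) : False := by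
  have hr3 : r3 = .OU true ∨ ∃ κ, r3 = .O true κ := by
    rcases r3 with (_ | _) | ⟨(_ | _), κ⟩ | (_ | _) | _ | _ | _ <;>
      first
      | exact Or.inl rfl
      | exact Or.inr ⟨_, rfl⟩
      | (exfalso; simp only [rOUf, rOUt, rOf, rOt, rIf, rIt, rB, rX, rM] at k23; omega)
  have hr4 : r4 = .OU true ∨ ∃ κ, r4 = .O true κ := by
    have k24 : 5 ≤ region r4 := by omega
    rcases r4 with (_ | _) | ⟨(_ | _), κ⟩ | (_ | _) | _ | _ | _ <;>
      first
      | exact Or.inl rfl
      | exact Or.inr ⟨_, rfl⟩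
      | (exfalso; simp only [rOUf, rOUt, rOf, rOt, rIf, rIt, rB, rX, rM] at k24; omega)
  rcases hr3 with rfl | ⟨κ2, rfl⟩
  · rcases hr4 with rfl | ⟨κ1, rfl⟩
    · rw [ent_row_nc rfl l4 l3, h30] at h40
      cases h40
    · simp only [rOUf, rOUt, rOf, rOt, rIf, rIt, rB, rX, rM] at k34; omega
  · have n23 : κ2 ≠ κ3 := by
      rintro rfl
      rw [ent_row_nc rfl l2 l3, h32] at h22
      cases h22
    have g0 := see_two true n23 h30 h20
    have g1 := see_two true n23 h31 h21
    have g3 := see_two true n23 h33 h23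
    have g4 := see_two true n23 h34 h24
    have e1 := region_core g1
    have e3 := region_core g3
    have g2 : isCore c2 = true := core_of_region (by omega)
    rcases hr4 with rfl | ⟨κ1, rfl⟩
    · rw [ent_OU_core g0] at h40
      cases h40
    · have n12 : κ1 ≠ κ2 := by
        rintro rfl
        rw [ent_row_nc rfl l4 l3, h30] at h40
        cases h40
      have n13 : κ1 ≠ κ3 := by
        rintro rfl
        rw [ent_row_nc rfl l4 l2, h20] at h40
        cases h40
      rw [ent_O_core g0] at h40 h30 h20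
      rw [ent_O_core g3] at h43 h33 h23
      rw [ent_O_core g2] at h42 h32 h22
      rw [ent_O_core g4] at h44 h34 h24
      refine colour n12 n13 n23 h43 h33 h23 h44 h34 h24 h42 h32 h22 h30 h20 h40 ?_
      intro s s' hs hs' e e'
      subst e e'
      have : s' = s := Fin.ext (by omega)
      subst this
      have hag : agree s'.val m4 m3 = true := by
        rw [agree_iff]
        intro j hj
        omega
      rw [ent_col_congr hag, h03] at h04
      cases h04

theorem no_copy_aux {r0 r1 r2 r3 r4 c0 c1 c2 c3 c4 : Cls T}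
    {l0 l1 l2 l3 l4 m0 m1 m2 m3 m4 : Lbl T}
    (R01 : kle r0 l0 r1 l1) (R12 : kle r1 l1 r2 l2) (R23 : kle r2 l2 r3 l3)
    (R34 : kle r3 l3 r4 l4)
    (C01 : kle c0 m0 c1 m1) (C12 : kle c1 m1 c2 m2) (C23 : kle c2 m2 c3 m3)
    (C34 : kle c3 m3 c4 m4)
    (h00 : ent r0 l0 c0 m0 = true) (h01 : ent r0 l0 c1 m1 = true)
    (h02 : ent r0 l0 c2 m2 = true) (h03 : ent r0 l0 c3 m3 = true)
    (h04 : ent r0 l0 c4 m4 = false)
    (h10 : ent r1 l1 c0 m0 = true) (h11 : ent r1 l1 c1 m1 = true)
    (h12 : ent r1 l1 c2 m2 = true) (h13 : ent r1 l1 c3 m3 = true)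
    (h14 : ent r1 l1 c4 m4 = true)
    (h20 : ent r2 l2 c0 m0 = true) (h21 : ent r2 l2 c1 m1 = true)
    (h22 : ent r2 l2 c2 m2 = false) (h23 : ent r2 l2 c3 m3 = true)
    (h24 : ent r2 l2 c4 m4 = true)
    (h30 : ent r3 l3 c0 m0 = true) (h31 : ent r3 l3 c1 m1 = true)
    (h32 : ent r3 l3 c2 m2 = true) (h33 : ent r3 l3 c3 m3 = true)
    (h34 : ent r3 l3 c4 m4 = true)
    (h40 : ent r4 l4 c0 m0 = false) (h41 : ent r4 l4 c1 m1 = true)
    (h42 : ent r4 l4 c2 m2 = true) (h43 : ent r4 l4 c3 m3 = true)
    (h44 : ent r4 l4 c4 m4 = true) : r2 = .X ∧ c2 = .X ∧ l2 = m2 := by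
  have k01 := kle_region R01
  have k12 := kle_region R12
  have k23 := kle_region R23
  have k34 := kle_region R34
  have q01 := kle_region C01
  have q12 := kle_region C12
  have q23 := kle_region C23
  have q34 := kle_region C34
  by_cases hr2 : isCore r2 = true
  · have row2 := isRow_of_ent hr2 h20
    have g2 := region_core hr2
    by_cases hc2 : isCore c2 = true
    · by_cases a0 : ∃ κ, r0 = .O false κ
      · obtain ⟨κ, rfl⟩ := a0
        exact case_alpha row2 hc2 C01 C12 C23 h00 h01 h02 h03 h20 h21 h22 h23 h40 h41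
      · by_cases b0 : ∃ κ, r4 = .O true κ
        · obtain ⟨κ, rfl⟩ := b0
          exact case_beta row2 hc2 C12 C23 C34 h41 h42 h43 h44 h21 h22 h23 h24 h03 h04
        · push Not at a0 b0
          exact (case_gamma row2 hc2 a0 b0 R01 R12 R23 R34 (by omega) (by omega) h00 h02 h04
            h10 h12 h14 h20 h22 h24 h30 h32 h34 h40 h42 h44).elim
    · exfalso
      cases c2 with
      | OU a => rw [ent_row_OU row2] at h22; cases h22
      | I a => rw [ent_row_I row2] at h22; cases h22
      | O a κ =>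
        cases a with
        | false =>
          have e := rOf κ
          exact case_left row2 (by omega) (by omega) q01 (by omega) h00 h01 h02 h20 h21 h22
            h40 h41
        | true =>
          have e := rOt κ
          exact case_right row2 (by omega) (by omega) q34 (by omega) h42 h43 h44 h22 h23 h24
            h03 h04
      | _ => exact hc2 rfl
  · exfalso
    cases r2 with
    | OU a =>
      cases a with
      | false =>
        have e := rOUf (T := T)
        have z1 : r1 = .OU false := by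
          have : region r1 ≤ 0 := by omega
          rcases r1 with (_ | _) | ⟨(_ | _), κ⟩ | (_ | _) | _ | _ | _ <;>
            first
            | rfl
            | (exfalso; simp only [rOUf, rOUt, rOf, rOt, rIf, rIt, rB, rX, rM] at this; omega)
        subst z1
        rw [ent_row_nc rfl l2 l1, h12] at h22
        cases h22
      | true =>
        have e := rOUt (T := T)
        have z1 : r3 = .OU true := by
          have : 6 ≤ region r3 := by omega
          rcases r3 with (_ | _) | ⟨(_ | _), κ⟩ | (_ | _) | _ | _ | _ <;>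
            first
            | rfl
            | (exfalso; simp only [rOUf, rOUt, rOf, rOt, rIf, rIt, rB, rX, rM] at this; omega)
        subst z1
        rw [ent_row_nc rfl l2 l3, h32] at h22
        cases h22
    | I a =>
      have hc : (∃ b, c2 = .OU b) ∨ ∃ b, c2 = .I b := by
        cases c2 with
        | OU b => exact Or.inl ⟨b, rfl⟩
        | I b => exact Or.inr ⟨b, rfl⟩
        | _ => simp [ent] at h22
      have notO : ∀ b κ l, ent (.O b κ) l c2 m2 = false := by
        intro b κ l
        rcases hc with ⟨b', rfl⟩ | ⟨b', rfl⟩ <;> rfl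
      cases a with
      | false =>
        have e := rIf (T := T)
        have z1 : r1 = .OU false := by
          have : region r1 ≤ 2 := by omega
          rcases r1 with (_ | _) | ⟨(_ | _), κ⟩ | (_ | _) | _ | _ | _ <;>
            first
            | rfl
            | (exfalso; simp only [rOUf, rOUt, rOf, rOt, rIf, rIt, rB, rX, rM] at this; omega)
            | (exfalso; rw [notO] at h12; cases h12; done)
            | (exfalso; rw [ent_row_nc rfl l2 l1, h12] at h22; cases h22; done)
        subst z1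
        have z0 : r0 = .OU false := by
          have : region r0 ≤ 0 := k01
          rcases r0 with (_ | _) | ⟨(_ | _), κ⟩ | (_ | _) | _ | _ | _ <;>
            first
            | rfl
            | (exfalso; simp only [rOUf, rOUt, rOf, rOt, rIf, rIt, rB, rX, rM] at this; omega)
        subst z0
        rw [ent_row_nc rfl l0 l1, h14] at h04
        cases h04
      | true =>
        have e := rIt (T := T)
        have z1 : r3 = .OU true := by
          have : 4 ≤ region r3 := by omega
          rcases r3 with (_ | _) | ⟨(_ | _), κ⟩ | (_ | _) | _ | _ | _ <;>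
            first
            | rfl
            | (exfalso; simp only [rOUf, rOUt, rOf, rOt, rIf, rIt, rB, rX, rM] at this; omega)
            | (exfalso; rw [notO] at h32; cases h32; done)
            | (exfalso; rw [ent_row_nc rfl l2 l3, h32] at h22; cases h22; done)
        subst z1
        have z0 : r4 = .OU true := by
          have : 6 ≤ region r4 := k34
          rcases r4 with (_ | _) | ⟨(_ | _), κ⟩ | (_ | _) | _ | _ | _ <;>
            first
            | rfl
            | (exfalso; simp only [rOUf, rOUt, rOf, rOt, rIf, rIt, rB, rX, rM] at this; omega)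
        subst z0
        rw [ent_row_nc rfl l4 l3, h30] at h40
        cases h40
    | O a κ =>
      cases a with
      | false =>
        have e := rOf κ
        exact case_top k01 (by omega) q12 q23 h00 h01 h02 h04 h10 h11 h12 h13 h14 h20 h21
          h22 h23 h24 h40 h41
      | true =>
        have e := rOt κ
        exact case_bot k34 (by omega) q12 q23 h40 h42 h43 h44 h30 h31 h32 h33 h34 h20 h21
          h22 h23 h24 h03 h04
    | _ => exact hr2 rfl

theorem no_copy (xr : Fin 5 → Cls T) (lr : Fin 5 → Lbl T) (xc : Fin 5 → Cls T)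
    (lc : Fin 5 → Lbl T) (hr : ∀ i j, i ≤ j → kle (xr i) (lr i) (xr j) (lr j))
    (hc : ∀ i j, i ≤ j → kle (xc i) (lc i) (xc j) (lc j))
    (h : ∀ i j, ent (xr i) (lr i) (xc j) (lc j) = H5 i j) :
    ∃ i j, xr i = .X ∧ xc j = .X ∧ lr i = lc j := by
  refine ⟨2, 2, ?_⟩
  exact no_copy_aux (hr 0 1 (by decide)) (hr 1 2 (by decide)) (hr 2 3 (by decide))
    (hr 3 4 (by decide)) (hc 0 1 (by decide)) (hc 1 2 (by decide)) (hc 2 3 (by decide))
    (hc 3 4 (by decide)) (h 0 0) (h 0 1) (h 0 2) (h 0 3) (h 0 4)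
    (h 1 0) (h 1 1) (h 1 2) (h 1 3) (h 1 4) (h 2 0) (h 2 1) (h 2 2) (h 2 3) (h 2 4)
    (h 3 0) (h 3 1) (h 3 2) (h 3 3) (h 3 4) (h 4 0) (h 4 1) (h 4 2) (h 4 3) (h 4 4)

end Vale.Agent.P037
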