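import Mathlib

namespace Vale.Agent.P037

open Filter Topology

theorem asymp_eventually (c C : ℝ) (hc : 0 < c) :
    ∀ᶠ T : ℕ in atTop, 25 * (1 / 2 : ℝ) ^ T < c * (1 / (3 * (6 * (T : ℝ) + 12) ^ 2)) ^ C := by
  obtain ⟨K, hK⟩ := exists_nat_ge C
  have h1 := tendsto_pow_const_div_const_pow_of_one_lt (2 * K) (one_lt_two : (1 : ℝ) < 2)
  have h2 : (0 : ℝ) < c / (25 * 972 ^ K) := by positivity
  have h3 := h1.eventually (gt_mem_nhds h2)
  filter_upwards [h3, eventually_ge_atTop 1] with T hT hT1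
  have hT1' : (1 : ℝ) ≤ T := by exact_mod_cast hT1
  set b : ℝ := 3 * (6 * (T : ℝ) + 12) ^ 2 with hb
  have hb1 : 1 ≤ b := by
    rw [hb]
    nlinarith
  have hb0 : 0 < b := by linarith
  have hb2 : b ≤ 972 * (T : ℝ) ^ 2 := by
    rw [hb]
    nlinarith
  have e1 : (1 / b) ^ C = 1 / b ^ C := by
    rw [Real.div_rpow zero_le_one hb0.le, Real.one_rpow]
  have e2 : b ^ C ≤ 972 ^ K * (T : ℝ) ^ (2 * K) := by
    calc b ^ C ≤ b ^ (K : ℝ) := Real.rpow_le_rpow_of_exponent_le hb1 hK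
      _ = b ^ K := Real.rpow_natCast b K
      _ ≤ (972 * (T : ℝ) ^ 2) ^ K := pow_le_pow_left₀ hb0.le hb2 K
      _ = 972 ^ K * (T : ℝ) ^ (2 * K) := by rw [mul_pow, ← pow_mul]
  have hbC : 0 < b ^ C := Real.rpow_pos_of_pos hb0 C
  have h2T : (0 : ℝ) < 2 ^ T := by positivity
  have hT2 : 25 * (972 ^ K * (T : ℝ) ^ (2 * K)) < c * 2 ^ T := by
    rw [div_lt_div_iff₀ h2T (by positivity)] at hT
    linarith
  rw [e1, one_div_pow, mul_one_div, mul_one_div, div_lt_div_iff₀ h2T hbC]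
  calc 25 * b ^ C ≤ 25 * (972 ^ K * (T : ℝ) ^ (2 * K)) := by linarith
    _ < c * 2 ^ T := hT2

theorem asymp (c C : ℝ) (hc : 0 < c) :
    ∃ T : ℕ, 1 ≤ T ∧ 25 * (1 / 2 : ℝ) ^ T < c * (1 / (3 * (6 * (T : ℝ) + 12) ^ 2)) ^ C := by
  obtain ⟨T, hT, hT1⟩ := ((asymp_eventually c C hc).and (eventually_ge_atTop 1)).exists
  exact ⟨T, hT1, hT⟩

end Vale.Agent.P037
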