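import Vale.Agent.P037.Mid

namespace Vale.Agent.P037

variable {T : ℕ}

theorem kle_region {x y : Cls T} {l m : Lbl T} (h : kle x l y m) : region x ≤ region y := by
  rcases h with h | h
  · omega
  · omega

theorem ent_row_O {x : Cls T} (hx : isRow x) (l : Lbl T) (a : Bool) (κ : Clr T) (m : Lbl T) :
    ent x l (.O a κ) m = Zhit κ x l := by
  rcases hx with rfl | ⟨b, s, rfl⟩ <;> rfl

theorem ent_row_OU {x : Cls T} (hx : isRow x) (l : Lbl T) (a : Bool) (m : Lbl T) :
    ent x l (.OU a) m = true := by
  rcases hx with rfl | ⟨b, s, rfl⟩ <;> rfl

theorem ent_row_I {x : Cls T} (hx : isRow x) (l : Lbl T) (a : Bool) (m : Lbl T) :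
    ent x l (.I a) m = true := by
  rcases hx with rfl | ⟨b, s, rfl⟩ <;> rfl

theorem ent_O_core {y : Cls T} (hy : isCore y = true) (a : Bool) (κ : Clr T) (l m : Lbl T) :
    ent (.O a κ) l y m = Whit κ y m := by
  cases y <;> first | rfl | simp [isCore] at hy

theorem ent_OU_core {y : Cls T} (hy : isCore y = true) (a : Bool) (l m : Lbl T) :
    ent (.OU a) l y m = true := by
  cases y <;> first | rfl | simp [isCore] at hy

theorem ent_I_core {y : Cls T} (hy : isCore y = true) (a : Bool) (l m : Lbl T) :
    ent (.I a) l y m = true := by
  cases y <;> first | rfl | simp [isCore] at hy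

theorem ent_col_nc {x y : Cls T} (hy : isCore y = false) (l m m' : Lbl T) :
    ent x l y m = ent x l y m' := by
  cases y <;> first | (simp [isCore] at hy; done) | (cases x <;> rfl)

theorem ent_row_nc {x y : Cls T} (hx : isCore x = false) (l l' m : Lbl T) :
    ent x l y m = ent x l' y m := by
  cases x <;> first | (simp [isCore] at hx; done) | (cases y <;> rfl)

theorem ent_M {y : Cls T} (l m : Lbl T) : ent .M l y m = false := by
  cases y <;> rfl

theorem lemZ {κ κ2 : Clr T} {x y : Cls T} {l m : Lbl T} (h1 : Zhit κ2 x l = true)
    (h2 : Zhit κ2 y m = true) (h3 : Zhit κ x l = true) : Zhit κ y m = true := by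
  cases κ2 with
  | reg s c =>
    cases x with
    | B a t =>
      cases y with
      | B b u =>
        cases κ with
        | reg s' c' =>
          simp [Zhit] at h1 h2 h3 ⊢
          have hs : s' = s := Fin.ext (by omega)
          subst hs
          refine ⟨h2.1, ?_⟩
          rw [h2.2, ← h1.2, h3.2]
        | star => simp [Zhit] at h3
        | circ => simp [Zhit] at h3
      | _ => simp [Zhit] at h2
    | _ => simp [Zhit] at h1
  | star =>
    cases x with
    | X =>
      cases y with
      | X => cases κ <;> simp_all [Zhit]
      | _ => simp [Zhit] at h2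
    | _ => simp [Zhit] at h1
  | circ =>
    cases x with
    | X =>
      cases y with
      | X => cases κ <;> simp_all [Zhit]
      | _ => simp [Zhit] at h2
    | _ => simp [Zhit] at h1

theorem Zhit_two {κ κ' : Clr T} {x : Cls T} {l : Lbl T} (hne : κ ≠ κ')
    (h1 : Zhit κ x l = true) (h2 : Zhit κ' x l = true) :
    (κ = .star ∧ κ' = .circ) ∨ (κ = .circ ∧ κ' = .star) := by
  cases x with
  | B a t =>
    exfalso
    cases κ with
    | reg s c =>
      cases κ' with
      | reg s' c' =>
        simp [Zhit] at h1 h2
        have hs : s' = s := Fin.ext (by omega)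
        subst hs
        apply hne
        rw [← h1.2, ← h2.2]
      | star => simp [Zhit] at h2
      | circ => simp [Zhit] at h2
    | star => simp [Zhit] at h1
    | circ => simp [Zhit] at h1
  | X =>
    cases κ with
    | reg s c => simp [Zhit] at h1
    | star =>
      cases κ' with
      | reg s c => simp [Zhit] at h2
      | star => exact absurd rfl hne
      | circ => exact Or.inl ⟨rfl, rfl⟩
    | circ =>
      cases κ' with
      | reg s c => simp [Zhit] at h2
      | star => exact Or.inr ⟨rfl, rfl⟩
      | circ => exact absurd rfl hne
  | _ => cases κ <;> simp [Zhit] at h1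

theorem star_circ (x : Cls T) (l m m' : Lbl T) (a : Bool)
    (hx : ∀ b κ, x ≠ .O b κ ∨ b ≠ a) :
    ent x l (.O a .star) m = ent x l (.O a .circ) m' := by
  cases x with
  | O b κ =>
    rcases hx b κ with h | h
    · exact absurd rfl h
    · cases a <;> cases b <;> simp_all [ent]
  | _ => rfl

theorem circ_case {κ κ' : Clr T} (hκ : κ ≠ .circ) (hκ' : κ' ≠ .circ) (hne : κ ≠ κ')
    {y : Cls T} {m : Lbl T} (h : Whit .circ y m = true) (h1 : Whit κ y m = true)
    (h2 : Whit κ' y m = true) : ∃ s : Fin (T + 1), s.val = 0 ∧ y = .B true s := by
  cases y with
  | B a t =>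
    simp [Whit] at h
    exact ⟨t, by simp [h.2], by rw [h.1]⟩
  | X =>
    exfalso
    cases κ <;> cases κ' <;> simp_all [Whit]
  | M =>
    exfalso
    cases κ <;> simp_all [Whit]
  | _ => simp [Whit] at h

theorem parent_child {s s' : Fin T} {c c' : Bool} (c'' : Bool) {z : Cls T} {m : Lbl T}
    (hs : s'.val = s.val + 1) (h1 : Whit (.reg s c) z m = true)
    (h2 : Whit (.reg s' c') z m = true) : Whit (.reg s' c'') z m = true := by
  cases z with
  | B a u =>
    simp [Whit] at h1 h2 ⊢
    left
    omega
  | _ => simp [Whit] at h1

theorem colour {κ1 κ2 κ3 : Clr T} (h12 : κ1 ≠ κ2) (h13 : κ1 ≠ κ3) (h23 : κ2 ≠ κ3)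
    {y y' z w : Cls T} {m m' mz mw : Lbl T}
    (y1 : Whit κ1 y m = true) (y2 : Whit κ2 y m = true) (y3 : Whit κ3 y m = true)
    (y1' : Whit κ1 y' m' = true) (y2' : Whit κ2 y' m' = true) (y3' : Whit κ3 y' m' = true)
    (z1 : Whit κ1 z mz = true) (z2 : Whit κ2 z mz = true) (z3 : Whit κ3 z mz = false)
    (w2 : Whit κ2 w mw = true) (w3 : Whit κ3 w mw = true) (w1 : Whit κ1 w mw = false)
    (hne : ∀ s s' : Fin (T + 1), s.val = 0 → s'.val = 0 → y = .B true s → y' ≠ .B true s') :
    False := by
  by_cases c1 : κ1 = .circ
  · subst c1
    obtain ⟨s, hs, e⟩ := circ_case (Ne.symm h12) (Ne.symm h13) h23 y1 y2 y3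
    obtain ⟨s', hs', e'⟩ := circ_case (Ne.symm h12) (Ne.symm h13) h23 y1' y2' y3'
    exact hne s s' hs hs' e e'
  by_cases c2 : κ2 = .circ
  · subst c2
    obtain ⟨s, hs, e⟩ := circ_case c1 (Ne.symm h23) h13 y2 y1 y3
    obtain ⟨s', hs', e'⟩ := circ_case c1 (Ne.symm h23) h13 y2' y1' y3'
    exact hne s s' hs hs' e e'
  by_cases c3 : κ3 = .circ
  · subst c3
    obtain ⟨s, hs, e⟩ := circ_case c1 c2 h12 y3 y1 y2
    obtain ⟨s', hs', e'⟩ := circ_case c1 c2 h12 y3' y1' y2'
    exact hne s s' hs hs' e e'
  cases y with
  | B a t =>
    cases κ1 with
    | circ => exact absurd rfl c1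
    | star =>
      cases κ2 with
      | circ => exact absurd rfl c2
      | star => exact absurd rfl h12
      | reg s c =>
        cases κ3 with
        | circ => exact absurd rfl c3
        | star => exact absurd rfl h13
        | reg s' c' =>
          simp [Whit] at y1 y2 y3
          have q2 : t.val = s.val + 1 ∧ m s = c := by
            rcases y2 with h | h
            · exfalso; omega
            · exact h
          have q3 : t.val = s'.val + 1 ∧ m s' = c' := by
            rcases y3 with h | h
            · exfalso; omega
            · exact h
          have hs : s' = s := Fin.ext (by omega)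
          subst hs
          exact h23 (by rw [← q2.2, ← q3.2])
    | reg s c =>
      cases κ2 with
      | circ => exact absurd rfl c2
      | star =>
        cases κ3 with
        | circ => exact absurd rfl c3
        | star => exact absurd rfl h23
        | reg s' c' =>
          simp [Whit] at y1 y2 y3
          have q2 : t.val = s.val + 1 ∧ m s = c := by
            rcases y1 with h | h
            · exfalso; omega
            · exact h
          have q3 : t.val = s'.val + 1 ∧ m s' = c' := by
            rcases y3 with h | h
            · exfalso; omega
            · exact h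
          have hs : s' = s := Fin.ext (by omega)
          subst hs
          exact h13 (by rw [← q2.2, ← q3.2])
      | reg s' c' =>
        cases κ3 with
        | circ => exact absurd rfl c3
        | star =>
          simp [Whit] at y1 y2 y3
          have q2 : t.val = s.val + 1 ∧ m s = c := by
            rcases y1 with h | h
            · exfalso; omega
            · exact h
          have q3 : t.val = s'.val + 1 ∧ m s' = c' := by
            rcases y2 with h | h
            · exfalso; omega
            · exact h
          have hs : s' = s := Fin.ext (by omega)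
          subst hs
          exact h12 (by rw [← q2.2, ← q3.2])
        | reg s'' c'' =>
          have e1 := y1
          have e2 := y2
          have e3 := y3
          simp [Whit] at e1 e2 e3
          rcases e1 with e1 | e1
          · rcases e2 with e2 | e2
            · rcases e3 with e3 | e3
              · have q1 : s' = s := Fin.ext (by omega)
                have q2 : s'' = s := Fin.ext (by omega)
                subst q1 q2
                cases c <;> cases c' <;> cases c'' <;> simp_all
              · have q1 : s' = s := Fin.ext (by omega)
                subst q1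
                have := parent_child c (by omega) w3 w2
                rw [w1] at this
                cases this
            · rcases e3 with e3 | e3
              · have q1 : s'' = s := Fin.ext (by omega)
                subst q1
                have := parent_child c'' (by omega) z2 z1
                rw [z3] at this
                cases this
              · have q1 : s'' = s' := Fin.ext (by omega)
                subst q1
                exact h23 (by rw [← e2.2, ← e3.2])
          · rcases e2 with e2 | e2
            · rcases e3 with e3 | e3
              · have q1 : s'' = s' := Fin.ext (by omega)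
                subst q1
                have := parent_child c'' (by omega) z1 z2
                rw [z3] at this
                cases this
              · have q1 : s'' = s := Fin.ext (by omega)
                subst q1
                exact h13 (by rw [← e1.2, ← e3.2])
            · have q1 : s' = s := Fin.ext (by omega)
              subst q1
              exact h12 (by rw [← e1.2, ← e2.2])
  | X =>
    cases κ1 <;> cases κ2 <;> cases κ3 <;> simp_all [Whit]
  | M =>
    cases κ1 <;> simp_all [Whit]
  | _ => cases κ1 <;> simp [Whit] at y1

end Vale.Agent.P037
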