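import Mathlib

namespace Vale.Agent.P037

inductive Clr (T : ℕ)
  | reg (s : Fin T) (c : Bool)
  | star
  | circ
  deriving DecidableEq, Fintype

inductive Cls (T : ℕ)
  | OU (a : Bool)
  | O (a : Bool) (κ : Clr T)
  | I (a : Bool)
  | B (a : Bool) (s : Fin (T + 1))
  | X
  | M
  deriving DecidableEq, Fintype

abbrev Lbl (T : ℕ) := Fin T → Bool

def digit {T : ℕ} (l : Lbl T) (j : ℕ) : ℕ :=
  if h : j < T then (if l ⟨j, h⟩ then 2 else 1) else 1

def word {T : ℕ} (x : Cls T) (l : Lbl T) (j : ℕ) : ℕ :=
  match x with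
  | .B a s => if j < s then digit l j else if j = s then (if a then 4 else 0) else 0
  | .X => if j ≤ T then digit l j else 0
  | .M => if j = 0 then 3 else 0
  | _ => 0

def region {T : ℕ} (x : Cls T) : ℕ :=
  match x with
  | .OU false => 0
  | .O false _ => 1
  | .I false => 2
  | .B _ _ => 3
  | .X => 3
  | .M => 3
  | .I true => 4
  | .O true _ => 5
  | .OU true => 6

def isCore {T : ℕ} (x : Cls T) : Bool :=
  match x with
  | .B _ _ => true
  | .X => true
  | .M => true
  | _ => false

def Zhit {T : ℕ} (κ : Clr T) (x : Cls T) (l : Lbl T) : Bool :=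
  match κ, x with
  | .reg s c, .B _ t => (t.val == s.val + 1) && (l s == c)
  | .star, .X => true
  | .circ, .X => true
  | _, _ => false

def Whit {T : ℕ} (κ : Clr T) (x : Cls T) (l : Lbl T) : Bool :=
  match κ, x with
  | .reg s c, .B _ t => (t.val == s.val) || ((t.val == s.val + 1) && (l s == c))
  | .star, .X => true
  | .star, .B _ t => t.val == T
  | .circ, .X => true
  | .circ, .M => true
  | .circ, .B a t => a && (t.val == 0)
  | _, _ => false

def agree {T : ℕ} (t : ℕ) (l m : Lbl T) : Bool :=
  decide (∀ j : Fin T, j.val < t → l j = m j)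

def ent {T : ℕ} (x : Cls T) (l : Lbl T) (y : Cls T) (m : Lbl T) : Bool :=
  match x, y with
  | .OU a, .OU b => a == b
  | .OU _, .O _ _ => false
  | .OU _, _ => true
  | .O _ _, .OU _ => false
  | .O a κ, .O b κ' => (a == b) && (κ == κ')
  | .O _ _, .I _ => false
  | .O _ κ, y => Whit κ y m
  | .I _, .OU _ => false
  | .I _, .I _ => false
  | .I _, _ => true
  | .M, _ => false
  | _, .OU _ => true
  | x, .O _ κ => Zhit κ x l
  | _, .I _ => true
  | .X, .B _ t => agree t l m
  | .B _ s, .B _ t => decide (t ≤ s) && agree t l m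
  | _, .X => false
  | _, .M => false

end Vale.Agent.P037
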