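import Vale.Agent.P037.Construction

namespace Vale.Agent.P037

variable {T : ℕ}

theorem lex_le_at (a b : ℕ → ℕ) (hab : toLex a ≤ toLex b) (s : ℕ)
    (h : ∀ j < s, a j = b j) : a s ≤ b s := by
  rcases hab.lt_or_eq with hlt | heq
  · obtain ⟨i, hi, hlt⟩ := hlt
    rcases lt_trichotomy i s with h1 | h1 | h1
    · exact absurd (h i h1) (ne_of_lt hlt)
    · subst h1; exact le_of_lt hlt
    · exact le_of_eq (hi s h1)
  · have : a = b := toLex.injective heq
    rw [this]

theorem lex_conv (a b c : ℕ → ℕ) (hab : toLex a ≤ toLex b) (hbc : toLex b ≤ toLex c) (t : ℕ)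
    (h : ∀ j < t, a j = c j) : ∀ j < t, b j = a j := by
  intro j
  induction j using Nat.strong_induction_on with
  | _ j ih =>
    intro hj
    have h1 : a j ≤ b j := lex_le_at a b hab j (fun i hi => (ih i hi (hi.trans hj)).symm)
    have h2 : b j ≤ c j := lex_le_at b c hbc j (fun i hi => by
      rw [ih i hi (hi.trans hj), h i (hi.trans hj)])
    have h3 := h j hj
    omega

theorem digit_ne_zero (l : Lbl T) (j : ℕ) : digit l j = 1 ∨ digit l j = 2 := by
  unfold digit
  split_ifs <;> simp

theorem digit_inj {l m : Lbl T} {j : ℕ} (hj : j < T) (h : digit l j = digit m j) :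
    l ⟨j, hj⟩ = m ⟨j, hj⟩ := by
  unfold digit at h
  simp only [hj, dif_pos] at h
  cases h1 : l ⟨j, hj⟩ <;> cases h2 : m ⟨j, hj⟩ <;> simp_all

theorem digit_congr {l m : Lbl T} {j : ℕ} (h : ∀ hj : j < T, l ⟨j, hj⟩ = m ⟨j, hj⟩) :
    digit l j = digit m j := by
  unfold digit
  split_ifs with h1 h2 h3 h3 <;> first | rfl | (have := h h1; simp_all)

theorem agree_iff {t : ℕ} {l m : Lbl T} : agree t l m = true ↔ ∀ j : Fin T, j.val < t → l j = m j := by
  simp [agree]

theorem agree_symm {t : ℕ} {l m : Lbl T} (h : agree t l m = true) : agree t m l = true := by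
  rw [agree_iff] at *
  exact fun j hj => (h j hj).symm

theorem agree_trans {t : ℕ} {l m k : Lbl T} (h : agree t l m = true) (h' : agree t m k = true) :
    agree t l k = true := by
  rw [agree_iff] at *
  exact fun j hj => (h j hj).trans (h' j hj)

theorem agree_mono {t s : ℕ} {l m : Lbl T} (hts : s ≤ t) (h : agree t l m = true) :
    agree s l m = true := by
  rw [agree_iff] at *
  exact fun j hj => h j (lt_of_lt_of_le hj hts)

def lev (x : Cls T) : ℕ :=
  match x with
  | .B _ s => s.val
  | .X => T + 1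
  | _ => 0

theorem word_core_lt {x : Cls T} (hx : x = .X ∨ ∃ a s, x = .B a s) (l : Lbl T) (j : ℕ)
    (hj : j < lev x) : word x l j = digit l j := by
  rcases hx with rfl | ⟨a, s, rfl⟩
  · simp only [lev] at hj
    simp [word, Nat.lt_succ_iff.mp hj]
  · simp only [lev] at hj
    simp [word, hj]

end Vale.Agent.P037
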