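import Vale.Agent.P037.Order
import Vale.Agent.P037.NoCopy

namespace Vale.Agent.P037

variable {T : ℕ}

def isRow (x : Cls T) : Prop := x = .X ∨ ∃ a s, x = .B a s

theorem isRow_core {x : Cls T} (h : isRow x) : isCore x = true := by
  rcases h with rfl | ⟨a, s, rfl⟩ <;> rfl

theorem region_core {x : Cls T} (h : isCore x = true) : region x = 3 := by
  cases x <;> simp_all [isCore, region]

theorem core_of_region {x : Cls T} (h : region x = 3) : isCore x = true := by
  rcases x with (_ | _) | ⟨(_ | _), _⟩ | (_ | _) | _ | _ | _ <;> simp_all [isCore, region]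

theorem isRow_of_ent {x y : Cls T} {l m : Lbl T} (hx : isCore x = true)
    (h : ent x l y m = true) : isRow x := by
  cases x with
  | B a s => exact Or.inr ⟨a, s, rfl⟩
  | X => exact Or.inl rfl
  | M => cases y <;> simp [ent] at h
  | _ => simp [isCore] at hx

theorem core_ent {x y : Cls T} (hx : isRow x) (hy : isCore y = true) (l m : Lbl T) :
    ent x l y m = true ↔
      ∃ a t, y = .B a t ∧ t.val ≤ lev x ∧ agree t.val l m = true := by
  constructor
  · intro h
    cases y with
    | B a t =>
      refine ⟨a, t, rfl, ?_⟩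
      rcases hx with rfl | ⟨b, s, rfl⟩
      · simp [ent] at h
        exact ⟨by simp [lev], h⟩
      · simp [ent] at h
        exact ⟨by simpa [lev] using h.1, h.2⟩
    | X => rcases hx with rfl | ⟨b, s, rfl⟩ <;> simp [ent] at h
    | M => rcases hx with rfl | ⟨b, s, rfl⟩ <;> simp [ent] at h
    | _ => simp [isCore] at hy
  · rintro ⟨a, t, rfl, h1, h2⟩
    rcases hx with rfl | ⟨b, s, rfl⟩
    · simp [ent, h2]
    · simp [lev] at h1
      simp [ent, h1, h2]

theorem words_le {x y : Cls T} {l m : Lbl T} (h : kle x l y m) (hr : region x = region y) :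
    toLex (word x l) ≤ toLex (word y m) := by
  rcases h with h | h
  · omega
  · exact h.2

theorem word_lev {x : Cls T} (hx : isRow x) (l : Lbl T) (j : ℕ) (hj : j < lev x) :
    word x l j = digit l j := word_core_lt hx l j hj

theorem lev_of_word {x : Cls T} (hx : isRow x) (l m : Lbl T) (t : ℕ) (ht : t ≤ T)
    (h : ∀ j < t, word x l j = digit m j) : t ≤ lev x := by
  by_contra hc
  push Not at hc
  rcases hx with rfl | ⟨a, s, rfl⟩
  · simp [lev] at hc
    omega
  · simp [lev] at hc
    have h1 := h s.val hc
    have h2 := digit_ne_zero m s.val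
    simp [word] at h1
    cases a <;> simp at h1 <;> omega

theorem agree_of_word {x : Cls T} (hx : isRow x) (l m : Lbl T) (t : ℕ) (ht : t ≤ T)
    (h : ∀ j < t, word x l j = digit m j) : agree t l m = true := by
  have h1 := lev_of_word hx l m t ht h
  rw [agree_iff]
  intro j hj
  have h2 := h j.val hj
  rw [word_lev hx l j.val (by omega)] at h2
  exact digit_inj j.isLt h2

theorem word_of_agree {x : Cls T} (hx : isRow x) {l m : Lbl T} {t : ℕ}
    (h1 : t ≤ lev x) (h : agree t l m = true) : ∀ j < t, word x l j = digit m j := by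
  intro j hj
  rw [word_lev hx l j (by omega)]
  apply digit_congr
  intro hT
  rw [agree_iff] at h
  exact h ⟨j, hT⟩ hj

theorem ent_conv {x1 x2 x3 y : Cls T} {l1 l2 l3 m : Lbl T} (hx1 : isRow x1) (hx2 : isRow x2)
    (hx3 : isRow x3) (hy : isCore y = true) (h12 : kle x1 l1 x2 l2) (h23 : kle x2 l2 x3 l3)
    (h1 : ent x1 l1 y m = true) (h3 : ent x3 l3 y m = true) : ent x2 l2 y m = true := by
  have r1 := region_core (isRow_core hx1)
  have r2 := region_core (isRow_core hx2)
  have r3 := region_core (isRow_core hx3)
  have w12 := words_le h12 (by omega)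
  have w23 := words_le h23 (by omega)
  rw [core_ent hx1 hy] at h1
  rw [core_ent hx3 hy] at h3
  rw [core_ent hx2 hy]
  obtain ⟨a, t, rfl, h1a, h1b⟩ := h1
  obtain ⟨a', t', he, h3a, h3b⟩ := h3
  injection he with he1 he2
  subst he1 he2
  have ht : t.val ≤ T := by omega
  have e1 := word_of_agree hx1 h1a h1b
  have e3 := word_of_agree hx3 h3a h3b
  have e2 : ∀ j < t.val, word x2 l2 j = digit m j := by
    intro j hj
    have := lex_conv _ _ _ w12 w23 t.val (fun j hj => by
      show word x1 l1 j = word x3 l3 j
      rw [e1 j hj, e3 j hj]) j hj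
    exact this.trans (e1 j hj)
  exact ⟨a, t, rfl, lev_of_word hx2 l2 m t.val ht e2, agree_of_word hx2 l2 m t.val ht e2⟩

theorem ent_comp {x y z c d : Cls T} {lx ly lz mc md : Lbl T} (hx : isRow x) (hy : isRow y)
    (hz : isRow z) (hc : isCore c = true) (hd : isCore d = true)
    (hxc : ent x lx c mc = true) (hyc : ent y ly c mc = true) (hzc : ent z lz c mc = false)
    (hxd : ent x lx d md = false) (hyd : ent y ly d md = true) (hzd : ent z lz d md = true) :
    False := by
  rw [core_ent hx hc] at hxc
  rw [core_ent hy hc] at hyc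
  rw [core_ent hy hd] at hyd
  rw [core_ent hz hd] at hzd
  obtain ⟨a, t, rfl, hx1, hx2⟩ := hxc
  obtain ⟨a1, t1, he, hy1, hy2⟩ := hyc
  injection he with he1 he2
  subst he1 he2
  obtain ⟨b, u, rfl, hy3, hy4⟩ := hyd
  obtain ⟨b1, u1, he, hz1, hz2⟩ := hzd
  injection he with he1 he2
  subst he1 he2
  rcases le_total t.val u.val with h | h
  · have : ent z lz (.B a t) mc = true := by
      rw [core_ent hz rfl]
      refine ⟨a, t, rfl, by omega, ?_⟩
      have e1 : agree t.val lz ly = true :=
        agree_mono h (agree_trans hz2 (agree_symm hy4))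
      exact agree_trans e1 hy2
    simp [this] at hzc
  · have : ent x lx (.B b u) md = true := by
      rw [core_ent hx rfl]
      refine ⟨b, u, rfl, by omega, ?_⟩
      have e1 : agree u.val lx ly = true :=
        agree_mono h (agree_trans hx2 (agree_symm hy2))
      exact agree_trans e1 hy4
    simp [this] at hxd

end Vale.Agent.P037
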