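import Vale.Agent.P037.Order

namespace Vale.Agent.P037

def clrEquiv (T : ℕ) : Clr T ≃ (Fin T × Bool) ⊕ Bool where
  toFun x := match x with
    | .reg s c => Sum.inl (s, c)
    | .star => Sum.inr true
    | .circ => Sum.inr false
  invFun x := match x with
    | Sum.inl (s, c) => .reg s c
    | Sum.inr true => .star
    | Sum.inr false => .circ
  left_inv x := by cases x <;> rfl
  right_inv x := by
    rcases x with ⟨s, c⟩ | b
    · rfl
    · cases b <;> rfl

def clsEquiv (T : ℕ) : Cls T ≃ Bool ⊕ (Bool × Clr T) ⊕ Bool ⊕ (Bool × Fin (T + 1)) ⊕ Bool where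
  toFun x := match x with
    | .OU a => Sum.inl a
    | .O a κ => Sum.inr (Sum.inl (a, κ))
    | .I a => Sum.inr (Sum.inr (Sum.inl a))
    | .B a s => Sum.inr (Sum.inr (Sum.inr (Sum.inl (a, s))))
    | .X => Sum.inr (Sum.inr (Sum.inr (Sum.inr true)))
    | .M => Sum.inr (Sum.inr (Sum.inr (Sum.inr false)))
  invFun x := match x with
    | Sum.inl a => .OU a
    | Sum.inr (Sum.inl (a, κ)) => .O a κ
    | Sum.inr (Sum.inr (Sum.inl a)) => .I a
    | Sum.inr (Sum.inr (Sum.inr (Sum.inl (a, s)))) => .B a s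
    | Sum.inr (Sum.inr (Sum.inr (Sum.inr true))) => .X
    | Sum.inr (Sum.inr (Sum.inr (Sum.inr false))) => .M
  left_inv x := by cases x <;> rfl
  right_inv x := by
    rcases x with a | ⟨a, κ⟩ | a | ⟨a, s⟩ | b
    · rfl
    · rfl
    · rfl
    · rfl
    · cases b <;> rfl

theorem card_Clr (T : ℕ) : Fintype.card (Clr T) = 2 * T + 2 := by
  rw [Fintype.card_congr (clrEquiv T)]
  simp only [Fintype.card_sum, Fintype.card_prod, Fintype.card_fin, Fintype.card_bool]
  ring

theorem card_Cls (T : ℕ) : Fintype.card (Cls T) = 6 * T + 12 := by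
  rw [Fintype.card_congr (clsEquiv T)]
  simp only [Fintype.card_sum, Fintype.card_prod, Fintype.card_fin, Fintype.card_bool, card_Clr]
  ring

theorem card_LblFin (T M : ℕ) : Fintype.card (Lbl T × Fin M) = 2 ^ T * M := by
  rw [Fintype.card_prod, Fintype.card_fin]
  congr 1
  simp [Lbl]

theorem card_Idx (T M : ℕ) : Fintype.card (Idx T M) = (6 * T + 12) * (2 ^ T * M) := by
  have h : Fintype.card (Idx T M) = Fintype.card (Cls T × (Lbl T × Fin M)) := rfl
  rw [h, Fintype.card_prod, card_Cls, card_LblFin]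

theorem count (T M : ℕ) :
    Nat.card {q : (Fin 5 → Idx T M) × (Fin 5 → Idx T M) //
      ∃ i j, (q.1 i).1 = .X ∧ (q.2 j).1 = .X ∧ (q.1 i).2.1 = (q.2 j).2.1}
      ≤ 25 * (2 ^ T * M ^ 2) * (Fintype.card (Idx T M)) ^ 8 := by
  classical
  set N := Fintype.card (Idx T M) with hN
  let P : Type := {z : Idx T M × Idx T M // z.1.1 = .X ∧ z.2.1 = .X ∧ z.1.2.1 = z.2.2.1}
  have hP : Fintype.card P ≤ 2 ^ T * M ^ 2 := by
    let g : P → Lbl T × (Fin M × Fin M) := fun z => (z.1.1.2.1, (z.1.1.2.2, z.1.2.2.2))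
    have hg : Function.Injective g := by
      rintro ⟨⟨⟨x1, x2, x3⟩, ⟨y1, y2, y3⟩⟩, hx, hy, hxy⟩
        ⟨⟨⟨x1', x2', x3'⟩, ⟨y1', y2', y3'⟩⟩, hx', hy', hxy'⟩ h
      simp only [g, Prod.mk.injEq] at h
      simp only at hx hy hxy hx' hy' hxy'
      obtain ⟨h1, h2, h3⟩ := h
      subst hx hy hx' hy' h1 h2 h3
      subst hxy
      subst hxy'
      rfl
    have := Fintype.card_le_of_injective g hg
    refine this.trans (le_of_eq ?_)
    rw [Fintype.card_prod, Fintype.card_prod, Fintype.card_fin]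
    have : Fintype.card (Lbl T) = 2 ^ T := by simp [Lbl]
    rw [this, pow_two]
  have hpart : ∀ i j : Fin 5,
      (Finset.univ.filter (fun q : (Fin 5 → Idx T M) × (Fin 5 → Idx T M) =>
        (q.1 i).1 = .X ∧ (q.2 j).1 = .X ∧ (q.1 i).2.1 = (q.2 j).2.1)).card
        ≤ (2 ^ T * M ^ 2) * N ^ 8 := by
    intro i j
    rw [← Fintype.card_subtype]
    let g : {q : (Fin 5 → Idx T M) × (Fin 5 → Idx T M) //
        (q.1 i).1 = .X ∧ (q.2 j).1 = .X ∧ (q.1 i).2.1 = (q.2 j).2.1} →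
        P × ((Fin 4 → Idx T M) × (Fin 4 → Idx T M)) :=
      fun q => (⟨(q.1.1 i, q.1.2 j), q.2⟩, (i.removeNth q.1.1, j.removeNth q.1.2))
    have hg : Function.Injective g := by
      rintro ⟨⟨a, b⟩, hq⟩ ⟨⟨a', b'⟩, hq'⟩ h
      have h0 := congrArg (fun z => z.1.1) h
      have h5 := congrArg (fun z => z.2) h
      simp only [g, Prod.mk.injEq] at h0 h5
      obtain ⟨h1, h2⟩ := h0
      obtain ⟨h3, h4⟩ := h5
      have e1 : a = a' := by
        rw [← Fin.insertNth_self_removeNth i a, ← Fin.insertNth_self_removeNth i a', h1, h3]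
      have e2 : b = b' := by
        rw [← Fin.insertNth_self_removeNth j b, ← Fin.insertNth_self_removeNth j b', h2, h4]
      subst e1 e2
      rfl
    refine (Fintype.card_le_of_injective g hg).trans ?_
    rw [Fintype.card_prod, Fintype.card_prod, Fintype.card_fun, Fintype.card_fin, ← hN]
    calc Fintype.card P * (N ^ 4 * N ^ 4) ≤ (2 ^ T * M ^ 2) * (N ^ 4 * N ^ 4) :=
          Nat.mul_le_mul_right _ hP
      _ = (2 ^ T * M ^ 2) * N ^ 8 := by ring
  rw [Nat.card_eq_fintype_card, Fintype.card_subtype]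
  have hsub : (Finset.univ.filter (fun q : (Fin 5 → Idx T M) × (Fin 5 → Idx T M) =>
      ∃ i j, (q.1 i).1 = .X ∧ (q.2 j).1 = .X ∧ (q.1 i).2.1 = (q.2 j).2.1)) ⊆
      (Finset.univ : Finset (Fin 5 × Fin 5)).biUnion (fun ij =>
        Finset.univ.filter (fun q : (Fin 5 → Idx T M) × (Fin 5 → Idx T M) =>
          (q.1 ij.1).1 = .X ∧ (q.2 ij.2).1 = .X ∧ (q.1 ij.1).2.1 = (q.2 ij.2).2.1)) := by
    intro q hq
    rw [Finset.mem_filter] at hq
    obtain ⟨_, i, j, h⟩ := hq
    rw [Finset.mem_biUnion]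
    exact ⟨(i, j), Finset.mem_univ _, Finset.mem_filter.2 ⟨Finset.mem_univ _, h⟩⟩
  refine (Finset.card_le_card hsub).trans (Finset.card_biUnion_le.trans ?_)
  refine (Finset.sum_le_sum fun ij _ => hpart ij.1 ij.2).trans ?_
  rw [Finset.sum_const, Finset.card_univ, Fintype.card_prod, Fintype.card_fin, smul_eq_mul]
  apply le_of_eq
  ring

end Vale.Agent.P037
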