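import Mathlib

namespace Vale.Agent.P037

def OrderedCopy {k n : ℕ} (H : Fin k → Fin k → Bool) (A : Fin n → Fin n → Bool)
    (p : (Fin k → Fin n) × (Fin k → Fin n)) : Prop :=
  StrictMono p.1 ∧ StrictMono p.2 ∧ ∀ i j, A (p.1 i) (p.2 j) = H i j

noncomputable def numCopies {k n : ℕ} (H : Fin k → Fin k → Bool) (A : Fin n → Fin n → Bool) : ℕ :=
  Set.ncard {p | OrderedCopy H A p}

noncomputable def diffCount {n : ℕ} (A B : Fin n → Fin n → Bool) : ℕ :=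
  Set.ncard {p : Fin n × Fin n | A p.1 p.2 ≠ B p.1 p.2}

noncomputable def distFree {k n : ℕ} (H : Fin k → Fin k → Bool) (A : Fin n → Fin n → Bool) : ℝ :=
  (⨅ B : {B : Fin n → Fin n → Bool // numCopies H B = 0}, (diffCount A B.1 : ℝ)) / (n : ℝ) ^ 2

def PolyRemoval : Prop :=
  ∀ k : ℕ, 1 ≤ k → ∀ H : Fin k → Fin k → Bool, ∃ c C : ℝ, 0 < c ∧ 0 < C ∧
    ∀ n : ℕ, 1 ≤ n → ∀ ε : ℝ, 0 < ε → ε < 1 → ∀ A : Fin n → Fin n → Bool,
      ε ≤ distFree H A → c * ε ^ C * (n : ℝ) ^ (2 * k) ≤ (numCopies H A : ℝ)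

def H5 : Fin 5 → Fin 5 → Bool := fun i j =>
  !((i.val == 0 && j.val == 4) || (i.val == 2 && j.val == 2) || (i.val == 4 && j.val == 0))

end Vale.Agent.P037
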