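import Mathlib

namespace Vale.Agent.P037

theorem pigeon {K L : Type} [Fintype K] [Fintype L] [DecidableEq K] [DecidableEq L]
    (bad : K × L → K × L → Prop)
    (hbad : 3 * Nat.card {p : (K × L) × (K × L) // bad p.1 p.2} < (Fintype.card L) ^ 2) :
    ∃ i j p : L, ∀ R C : K, ¬ bad (R, i) (C, j) ∧ ¬ bad (R, i) (C, p) ∧ ¬ bad (R, p) (C, j) := by
  classical
  set S : Finset (L × L) := Finset.univ.filter (fun q => ∃ R C : K, bad (R, q.1) (C, q.2)) with hS
  have hScard : S.card ≤ Nat.card {p : (K × L) × (K × L) // bad p.1 p.2} := by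
    rw [Nat.card_eq_fintype_card, Fintype.card_subtype]
    have hsub : S ⊆ (Finset.univ.filter (fun p : (K × L) × (K × L) => bad p.1 p.2)).image
        (fun p => (p.1.2, p.2.2)) := by
      intro q hq
      rw [hS, Finset.mem_filter] at hq
      obtain ⟨_, R, C, h⟩ := hq
      rw [Finset.mem_image]
      exact ⟨((R, q.1), (C, q.2)), Finset.mem_filter.2 ⟨Finset.mem_univ _, h⟩, rfl⟩
    exact (Finset.card_le_card hsub).trans Finset.card_image_le
  by_contra hcon
  push Not at hcon
  have hcov : (Finset.univ : Finset (L × L × L)) ⊆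
      ((S ×ˢ (Finset.univ : Finset L)).image (fun q => (q.1.1, q.1.2, q.2))) ∪
      (((S ×ˢ (Finset.univ : Finset L)).image (fun q => (q.1.1, q.2, q.1.2))) ∪
      ((S ×ˢ (Finset.univ : Finset L)).image (fun q => (q.2, q.1.2, q.1.1)))) := by
    rintro ⟨i, j, p⟩ _
    obtain ⟨R, C, h⟩ := hcon i j p
    rw [Finset.mem_union, Finset.mem_union, Finset.mem_image, Finset.mem_image, Finset.mem_image]
    have hmem : ∀ a b : L, (∃ R C : K, bad (R, a) (C, b)) → (a, b) ∈ S := by
      intro a b hab
      rw [hS, Finset.mem_filter]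
      exact ⟨Finset.mem_univ _, hab⟩
    by_cases h1 : bad (R, i) (C, j)
    · left
      exact ⟨((i, j), p), Finset.mem_product.2 ⟨hmem i j ⟨R, C, h1⟩, Finset.mem_univ _⟩, rfl⟩
    · right
      by_cases h2 : bad (R, i) (C, p)
      · left
        exact ⟨((i, p), j), Finset.mem_product.2 ⟨hmem i p ⟨R, C, h2⟩, Finset.mem_univ _⟩, rfl⟩
      · right
        have h3 : bad (R, p) (C, j) := h h1 h2
        exact ⟨((p, j), i), Finset.mem_product.2 ⟨hmem p j ⟨R, C, h3⟩, Finset.mem_univ _⟩, rfl⟩
  have hle := Finset.card_le_card hcov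
  have hprod : (S ×ˢ (Finset.univ : Finset L)).card = S.card * Fintype.card L := by
    rw [Finset.card_product, Finset.card_univ]
  have h3 : Fintype.card L * (Fintype.card L * Fintype.card L) ≤
      3 * (S.card * Fintype.card L) := by
    have e1 : (Finset.univ : Finset (L × L × L)).card
        = Fintype.card L * (Fintype.card L * Fintype.card L) := by
      rw [Finset.card_univ, Fintype.card_prod, Fintype.card_prod]
    rw [← e1]
    refine hle.trans ((Finset.card_union_le _ _).trans ?_)
    have a1 := Finset.card_image_le (s := S ×ˢ (Finset.univ : Finset L))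
      (f := fun q => (q.1.1, q.1.2, q.2))
    have a2 := Finset.card_image_le (s := S ×ˢ (Finset.univ : Finset L))
      (f := fun q => (q.1.1, q.2, q.1.2))
    have a3 := Finset.card_image_le (s := S ×ˢ (Finset.univ : Finset L))
      (f := fun q => (q.2, q.1.2, q.1.1))
    have a4 := Finset.card_union_le
      ((S ×ˢ (Finset.univ : Finset L)).image (fun q => (q.1.1, q.2, q.1.2)))
      ((S ×ˢ (Finset.univ : Finset L)).image (fun q => (q.2, q.1.2, q.1.1)))
    rw [hprod] at a1 a2 a3
    omega
  have hL : 0 < Fintype.card L := by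
    rcases Nat.eq_zero_or_pos (Fintype.card L) with h0 | h0
    · rw [h0] at hbad; simp at hbad
    · exact h0
  have h4 : Fintype.card L * Fintype.card L ≤ 3 * S.card := by
    have : Fintype.card L * (Fintype.card L * Fintype.card L) ≤
        Fintype.card L * (3 * S.card) := by
      calc _ ≤ 3 * (S.card * Fintype.card L) := h3
        _ = Fintype.card L * (3 * S.card) := by ring
    exact Nat.le_of_mul_le_mul_left this hL
  rw [pow_two] at hbad
  omega

end Vale.Agent.P037
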