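import Vale.Agent.P037.Order
import Vale.Agent.P037.Defs
import Vale.Agent.P037.Pigeon

namespace Vale.Agent.P037

theorem sm5 {α : Type*} [Preorder α] {a b c d e : α} (h1 : a < b) (h2 : b < c) (h3 : c < d)
    (h4 : d < e) : StrictMono ![a, b, c, d, e] := by
  rw [Fin.strictMono_iff_lt_succ]
  intro i
  fin_cases i
  · exact h1
  · exact h2
  · exact h3
  · exact h4

theorem ex5 {p : Fin 5 → Fin 5 → Prop} (h : ∃ i j, p i j) :
    (p 0 0 ∨ p 0 1 ∨ p 0 2 ∨ p 0 3 ∨ p 0 4) ∨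
    (p 1 0 ∨ p 1 1 ∨ p 1 2 ∨ p 1 3 ∨ p 1 4) ∨
    (p 2 0 ∨ p 2 1 ∨ p 2 2 ∨ p 2 3 ∨ p 2 4) ∨
    (p 3 0 ∨ p 3 1 ∨ p 3 2 ∨ p 3 3 ∨ p 3 4) ∨
    (p 4 0 ∨ p 4 1 ∨ p 4 2 ∨ p 4 3 ∨ p 4 4) := by
  obtain ⟨i, j, h⟩ := h
  fin_cases i <;> fin_cases j <;> simp_all

theorem force {α : Type} [Preorder α] (B : α → α → Bool)
    (hfree : ∀ r c : Fin 5 → α, StrictMono r → StrictMono c → ∃ i j, B (r i) (c j) ≠ H5 i j)
    {r0 r1 r2 r3 r4 c0 c1 c2 c3 c4 : α}
    (hr : r0 < r1 ∧ r1 < r2 ∧ r2 < r3 ∧ r3 < r4)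
    (hc : c0 < c1 ∧ c1 < c2 ∧ c2 < c3 ∧ c3 < c4)
    (e00 : B r0 c0 = true) (e01 : B r0 c1 = true) (e02 : B r0 c2 = true) (e03 : B r0 c3 = true)
    (e04 : B r0 c4 = false)
    (e10 : B r1 c0 = true) (e11 : B r1 c1 = true) (e12 : B r1 c2 = true) (e13 : B r1 c3 = true)
    (e14 : B r1 c4 = true)
    (e20 : B r2 c0 = true) (e21 : B r2 c1 = true) (e23 : B r2 c3 = true)
    (e24 : B r2 c4 = true)
    (e30 : B r3 c0 = true) (e31 : B r3 c1 = true) (e32 : B r3 c2 = true) (e33 : B r3 c3 = true)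
    (e34 : B r3 c4 = true)
    (e40 : B r4 c0 = false) (e41 : B r4 c1 = true) (e42 : B r4 c2 = true) (e43 : B r4 c3 = true)
    (e44 : B r4 c4 = true) : B r2 c2 = true := by
  have h := ex5 (hfree ![r0, r1, r2, r3, r4] ![c0, c1, c2, c3, c4]
    (sm5 hr.1 hr.2.1 hr.2.2.1 hr.2.2.2) (sm5 hc.1 hc.2.1 hc.2.2.1 hc.2.2.2))
  simp [H5, e00, e01, e02, e03, e04, e10, e11, e12, e13, e14, e20, e21, e23, e24, e30, e31, e32,
    e33, e34, e40, e41, e42, e43, e44] at h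
  exact h

variable {T M : ℕ}

def ix (x : Cls T) (u : Lbl T × Fin M) : Idx T M := (x, u)

def deep (s : ℕ) (x : Cls T) : Prop :=
  region x = 3 ∧ (∀ l j, j ≤ s → word x l j = digit l j) ∧
    (x = .X ∨ ∃ a t, x = .B a t)

theorem digit_pos (l : Lbl T) (j : ℕ) : 0 < digit l j ∧ digit l j < 3 := by
  unfold digit
  split_ifs <;> simp

theorem deep_B {s : ℕ} {a : Bool} {t : Fin (T + 1)} (h : s < t.val) : deep s (Cls.B a t) := by
  refine ⟨rfl, ?_, Or.inr ⟨a, t, rfl⟩⟩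
  intro l j hj
  have : j < t.val := by omega
  simp [word, this]

theorem deep_X {s : ℕ} (h : s ≤ T) : deep s (Cls.X : Cls T) := by
  refine ⟨rfl, ?_, Or.inl rfl⟩
  intro l j hj
  have : j ≤ T := by omega
  simp [word, this]

theorem low_lt {s : Fin (T + 1)} {x : Cls T} (hx : deep s.val x) (u v : Lbl T × Fin M)
    (h : s.val = 0 ∨ u = v) : ix (Cls.B false s) u < ix x v := by
  refine lt_of_word ?_ s.val ?_ ?_
  · exact hx.1.symm
  · intro j hj
    rcases h with h | h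
    · omega
    · subst h
      show word (Cls.B false s) u.1 j = word x u.1 j
      rw [hx.2.1 _ _ hj.le]
      simp [word, hj]
  · show word (Cls.B false s) u.1 s.val < word x v.1 s.val
    rw [hx.2.1 _ _ le_rfl]
    simpa [word] using (digit_pos v.1 s.val).1

theorem high_gt {s : Fin (T + 1)} {x : Cls T} (hx : deep s.val x) (u v : Lbl T × Fin M)
    (h : s.val = 0 ∨ u = v) : ix x v < ix (Cls.B true s) u := by
  refine lt_of_word ?_ s.val ?_ ?_
  · exact hx.1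
  · intro j hj
    rcases h with h | h
    · omega
    · subst h
      show word x u.1 j = word (Cls.B true s) u.1 j
      rw [hx.2.1 _ _ hj.le]
      simp [word, hj]
  · show word x v.1 s.val < word (Cls.B true s) u.1 s.val
    rw [hx.2.1 _ _ le_rfl]
    have := (digit_pos v.1 s.val).2
    simp [word]
    omega

theorem lt_reg {x y : Cls T} (u v : Lbl T × Fin M) (h : region x < region y) :
    ix x u < ix y v := lt_of_region h

def pick (s : ℕ) (u v : Lbl T × Fin M) : Lbl T × Fin M := if s = 0 then u else v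

theorem pick_cases (s : ℕ) (u v : Lbl T × Fin M) : pick s u v = u ∨ pick s u v = v := by
  unfold pick
  split_ifs
  · exact Or.inl rfl
  · exact Or.inr rfl

theorem pick_eq (s : ℕ) (u v : Lbl T × Fin M) : s = 0 ∨ pick s u v = v := by
  unfold pick
  split_ifs with h
  · exact Or.inl h
  · exact Or.inr rfl

structure Setup (T M : ℕ) where
  Q : Idx T M → Idx T M → Bool
  i : Lbl T × Fin M
  j : Lbl T × Fin M
  p : Lbl T × Fin M
  free : ∀ r c : Fin 5 → Idx T M, StrictMono r → StrictMono c →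
    ∃ a b, Q (r a) (c b) ≠ H5 a b
  ij : ∀ R C : Cls T, Q (R, i) (C, j) = ent R i.1 C j.1
  ip : ∀ R C : Cls T, Q (R, i) (C, p) = ent R i.1 C p.1
  pj : ∀ R C : Cls T, Q (R, p) (C, j) = ent R p.1 C j.1

namespace Setup

variable (S : Setup T M)

def rb (s : Fin (T + 1)) (a : Bool) : Idx T M := (Cls.B a s, pick s.val S.i S.p)

def cb (s : Fin (T + 1)) (a : Bool) : Idx T M := (Cls.B a s, pick s.val S.j S.p)

theorem fr (R : Cls T) (s : Fin (T + 1)) (b : Bool) :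
    S.Q (R, S.i) (S.cb s b) = ent R S.i.1 (Cls.B b s) (pick s.val S.j S.p).1 := by
  unfold cb
  rcases pick_cases s.val S.j S.p with h | h <;> rw [h]
  · exact S.ij _ _
  · exact S.ip _ _

theorem fc (C : Cls T) (s : Fin (T + 1)) (a : Bool) :
    S.Q (S.rb s a) (C, S.j) = ent (Cls.B a s) (pick s.val S.i S.p).1 C S.j.1 := by
  unfold rb
  rcases pick_cases s.val S.i S.p with h | h <;> rw [h]
  · exact S.ij _ _
  · exact S.pj _ _

theorem step1 (s : Fin (T + 1)) (ih : ∀ a b, S.Q (S.rb s a) (S.cb s b) = true)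
    {x : Cls T} (hx : deep s.val x) (b : Bool) : S.Q (x, S.p) (S.cb s b) = true := by
  have hreg : region x = 3 := hx.1
  refine force S.Q S.free
    (r0 := (Cls.OU false, S.i)) (r1 := S.rb s false) (r2 := (x, S.p)) (r3 := S.rb s true)
    (r4 := (Cls.OU true, S.i))
    (c0 := (Cls.OU false, S.j)) (c1 := (Cls.I false, S.j)) (c2 := S.cb s b)
    (c3 := (Cls.I true, S.j)) (c4 := (Cls.OU true, S.j)) ?_ ?_
    ?_ ?_ ?_ ?_ ?_ ?_ ?_ ?_ ?_ ?_ ?_ ?_ ?_ ?_ ?_ ?_ ?_ ?_ ?_ ?_ ?_ ?_ ?_ ?_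
  · exact ⟨lt_reg _ _ (show 0 < 3 by decide), low_lt hx _ _ (pick_eq _ _ _),
      high_gt hx _ _ (pick_eq _ _ _), lt_reg _ _ (show 3 < 6 by decide)⟩
  · exact ⟨lt_reg _ _ (show 0 < 2 by decide), lt_reg _ _ (show 2 < 3 by decide),
      lt_reg _ _ (show 3 < 4 by decide), lt_reg _ _ (show 4 < 6 by decide)⟩
  all_goals
    first
    | exact ih _ _
    | (rw [S.ij]; rfl)
    | (rw [S.fr]; rfl)
    | (rw [S.fc]; rfl)
    | (rw [S.pj]; rcases hx.2.2 with rfl | ⟨a, t, rfl⟩ <;> rfl)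

theorem step2 (s : Fin (T + 1)) (κ : Clr T)
    (hW : ∀ a m, Whit κ (Cls.B a s) m = true)
    {x y : Cls T} (hx : deep s.val x) (hy : deep s.val y)
    (hxl : ∀ b, S.Q (x, S.p) (S.cb s b) = true)
    (hZx : Zhit κ x S.p.1 = true) (hWy : Whit κ y S.p.1 = true) :
    S.Q (x, S.p) (y, S.p) = true := by
  have hrx : region x = 3 := hx.1
  have hry : region y = 3 := hy.1
  refine force S.Q S.free
    (r0 := (Cls.O false κ, S.i)) (r1 := (Cls.I false, S.i)) (r2 := (x, S.p))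
    (r3 := (Cls.I true, S.i)) (r4 := (Cls.O true κ, S.i))
    (c0 := (Cls.O false κ, S.j)) (c1 := S.cb s false) (c2 := (y, S.p))
    (c3 := S.cb s true) (c4 := (Cls.O true κ, S.j)) ?_ ?_
    ?_ ?_ ?_ ?_ ?_ ?_ ?_ ?_ ?_ ?_ ?_ ?_ ?_ ?_ ?_ ?_ ?_ ?_ ?_ ?_ ?_ ?_ ?_ ?_
  · exact ⟨lt_reg _ _ (show 1 < 2 by decide), lt_reg _ _ (show 2 < region x by omega),
      lt_reg _ _ (show region x < 4 by omega), lt_reg _ _ (show 4 < 5 by decide)⟩
  · exact ⟨lt_reg _ _ (show 1 < 3 by decide), low_lt hy _ _ (pick_eq _ _ _),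
      high_gt hy _ _ (pick_eq _ _ _), lt_reg _ _ (show 3 < 5 by decide)⟩
  · rw [S.ij]; simp [ent]
  · rw [S.fr]; simpa [ent] using hW _ _
  · rw [S.ip]; rcases hy.2.2 with rfl | ⟨a, t, rfl⟩ <;> simpa [ent] using hWy
  · rw [S.fr]; simpa [ent] using hW _ _
  · rw [S.ij]; simp [ent]
  · rw [S.ij]; rfl
  · rw [S.fr]; rfl
  · rw [S.ip]; rcases hy.2.2 with rfl | ⟨a, t, rfl⟩ <;> rfl
  · rw [S.fr]; rfl
  · rw [S.ij]; rfl
  · rw [S.pj]; rcases hx.2.2 with rfl | ⟨a, t, rfl⟩ <;> simpa [ent] using hZx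
  · exact hxl _
  · exact hxl _
  · rw [S.pj]; rcases hx.2.2 with rfl | ⟨a, t, rfl⟩ <;> simpa [ent] using hZx
  · rw [S.ij]; rfl
  · rw [S.fr]; rfl
  · rw [S.ip]; rcases hy.2.2 with rfl | ⟨a, t, rfl⟩ <;> rfl
  · rw [S.fr]; rfl
  · rw [S.ij]; rfl
  · rw [S.ij]; simp [ent]
  · rw [S.fr]; simpa [ent] using hW _ _
  · rw [S.ip]; rcases hy.2.2 with rfl | ⟨a, t, rfl⟩ <;> simpa [ent] using hWy
  · rw [S.fr]; simpa [ent] using hW _ _
  · rw [S.ij]; simp [ent]

theorem base (a b : Bool) : S.Q (S.rb 0 a) (S.cb 0 b) = true := by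
  have h1 : S.rb 0 a = (Cls.B a 0, S.i) := rfl
  have h2 : S.cb 0 b = (Cls.B b 0, S.j) := rfl
  rw [h1, h2, S.ij]
  simp [ent, agree]

theorem chain (s : ℕ) (hs : s < T + 1) (a b : Bool) :
    S.Q (S.rb ⟨s, hs⟩ a) (S.cb ⟨s, hs⟩ b) = true := by
  induction s generalizing a b with
  | zero => exact S.base a b
  | succ s ih =>
    have hs' : s < T + 1 := by omega
    have hT : s < T := by omega
    have hd : ∀ a, deep s (Cls.B a ⟨s + 1, hs⟩ : Cls T) := fun a => deep_B (by simp)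
    have h1 : ∀ a b, S.Q (Cls.B a ⟨s + 1, hs⟩, S.p) (S.cb ⟨s, hs'⟩ b) = true := fun a b =>
      S.step1 ⟨s, hs'⟩ (fun a b => ih hs' a b) (hd a) b
    have h2 := S.step2 ⟨s, hs'⟩ (Clr.reg ⟨s, hT⟩ (S.p.1 ⟨s, hT⟩)) (by simp [Whit]) (hd a) (hd b)
      (h1 a) (by simp [Zhit]) (by simp [Whit])
    exact h2

theorem last : S.Q (Cls.X, S.p) (Cls.X, S.p) = true := by
  have hd : deep T (Cls.X : Cls T) := deep_X le_rfl
  have hT : T < T + 1 := by omega
  have h1 : ∀ b, S.Q (Cls.X, S.p) (S.cb ⟨T, hT⟩ b) = true := fun b =>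
    S.step1 ⟨T, hT⟩ (fun a b => S.chain T hT a b) hd b
  exact S.step2 ⟨T, hT⟩ Clr.star (by simp [Whit]) hd hd h1 rfl rfl

theorem contra {T M : ℕ} (S : Setup T M) : False := by
  have h := S.last
  have hf : S.Q (Cls.X, S.p) (Cls.M, S.j) = true := by
    refine force S.Q S.free
      (r0 := (Cls.O false Clr.circ, S.i)) (r1 := (Cls.I false, S.i)) (r2 := (Cls.X, S.p))
      (r3 := (Cls.I true, S.i)) (r4 := (Cls.O true Clr.circ, S.i))
      (c0 := (Cls.O false Clr.circ, S.j)) (c1 := (Cls.X, S.p)) (c2 := (Cls.M, S.j))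
      (c3 := S.cb 0 true) (c4 := (Cls.O true Clr.circ, S.j)) ?_ ?_
      ?_ ?_ ?_ ?_ ?_ ?_ ?_ ?_ ?_ ?_ ?_ ?_ ?_ ?_ ?_ ?_ ?_ ?_ ?_ ?_ ?_ ?_ ?_ ?_
    · exact ⟨lt_reg _ _ (show 1 < 2 by decide), lt_reg _ _ (show 2 < 3 by decide),
        lt_reg _ _ (show 3 < 4 by decide), lt_reg _ _ (show 4 < 5 by decide)⟩
    · refine ⟨lt_reg _ _ (show 1 < 3 by decide), ?_, ?_, lt_reg _ _ (show 3 < 5 by decide)⟩
      · refine lt_of_word rfl 0 (fun j hj => absurd hj (Nat.not_lt_zero j)) ?_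
        have := (digit_pos S.p.1 0).2
        show word Cls.X S.p.1 0 < word Cls.M S.j.1 0
        simpa [word] using this
      · refine lt_of_word rfl 0 (fun j hj => absurd hj (Nat.not_lt_zero j)) ?_
        show word Cls.M S.j.1 0 < word (Cls.B true 0) S.j.1 0
        simp [word]
    all_goals
      first
      | exact h
      | (rw [S.ij]; simp [ent]; done)
      | (rw [S.ip]; simp [ent, Whit]; done)
      | (rw [S.pj]; simp [ent, Zhit]; done)
      | (rw [S.ij]; simp [ent, Whit]; done)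
      | (rw [S.fr]; simp [ent, Whit]; done)
      | (have h2 : S.cb 0 true = (Cls.B true 0, S.j) := rfl
         rw [h2, S.pj]; simp [ent, agree]; done)
  rw [S.pj] at hf
  simp [ent] at hf

end Setup

theorem far {T M : ℕ} (B : Idx T M → Idx T M → Bool)
    (hfree : ∀ r c : Fin 5 → Idx T M, StrictMono r → StrictMono c →
      ∃ i j, B (r i) (c j) ≠ H5 i j) :
    (2 ^ T * M) ^ 2 ≤ 3 * Nat.card {p : Idx T M × Idx T M //
      ent p.1.1 p.1.2.1 p.2.1 p.2.2.1 ≠ B p.1 p.2} := by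
  by_contra hcon
  push Not at hcon
  have hcard : Fintype.card (Lbl T × Fin M) = 2 ^ T * M := by
    simp [Lbl]
  obtain ⟨i, j, p, hg⟩ := pigeon (K := Cls T) (L := Lbl T × Fin M)
    (fun x y => ent x.1 x.2.1 y.1 y.2.1 ≠ B x y) (by rw [hcard]; exact hcon)
  refine Setup.contra (T := T) (M := M)
    { Q := B, i := i, j := j, p := p, free := hfree, ij := ?_, ip := ?_, pj := ?_ }
  · intro R C
    have := (hg R C).1
    push Not at this
    exact this.symm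
  · intro R C
    have := (hg R C).2.1
    push Not at this
    exact this.symm
  · intro R C
    have := (hg R C).2.2
    push Not at this
    exact this.symm

end Vale.Agent.P037
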