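import Vale.Agent.P037.Defs

namespace Vale.Agent.P037

set_option linter.unusedSectionVars false

variable {ι : Type} [Fintype ι] [LinearOrder ι] {n k : ℕ}

def pull (e : Fin n ≃o ι) (a : ι → ι → Bool) : Fin n → Fin n → Bool := fun i j => a (e i) (e j)

def push (e : Fin n ≃o ι) (A : Fin n → Fin n → Bool) : ι → ι → Bool :=
  fun x y => A (e.symm x) (e.symm y)

theorem pull_push (e : Fin n ≃o ι) (A : Fin n → Fin n → Bool) : pull e (push e A) = A := by
  funext i j
  simp [pull, push]

theorem numCopies_le (e : Fin n ≃o ι) (a : ι → ι → Bool) (H : Fin k → Fin k → Bool)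
    (P : (Fin k → ι) × (Fin k → ι) → Prop)
    (hP : ∀ q : (Fin k → ι) × (Fin k → ι), StrictMono q.1 → StrictMono q.2 →
      (∀ i j, a (q.1 i) (q.2 j) = H i j) → P q) :
    numCopies H (pull e a) ≤ Nat.card {q // P q} := by
  classical
  unfold numCopies
  rw [← Nat.card_coe_set_eq]
  refine Nat.card_le_card_of_injective
    (fun p : {p : (Fin k → Fin n) × (Fin k → Fin n) | OrderedCopy H (pull e a) p} =>
      (⟨(fun i => e (p.1.1 i), fun i => e (p.1.2 i)), ?_⟩ : {q // P q})) ?_
  · obtain ⟨h1, h2, h3⟩ := p.2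
    exact hP _ (fun i j hij => e.strictMono (h1 hij)) (fun i j hij => e.strictMono (h2 hij)) h3
  · intro p q h
    have h4 := congrArg Subtype.val h
    have h5 := congrArg Prod.fst h4
    have h6 := congrArg Prod.snd h4
    apply Subtype.ext
    apply Prod.ext
    · funext i
      exact e.injective (congrFun h5 i)
    · funext i
      exact e.injective (congrFun h6 i)

theorem free_push (e : Fin n ≃o ι) (B : Fin n → Fin n → Bool) (H : Fin k → Fin k → Bool)
    (hB : numCopies H B = 0) (r c : Fin k → ι) (hr : StrictMono r) (hc : StrictMono c) :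
    ∃ i j, push e B (r i) (c j) ≠ H i j := by
  by_contra hcon
  simp only [not_exists, not_not] at hcon
  unfold numCopies at hB
  rw [Set.ncard_eq_zero (Set.toFinite _)] at hB
  have : (fun i => e.symm (r i), fun i => e.symm (c i)) ∈
      {p : (Fin k → Fin n) × (Fin k → Fin n) | OrderedCopy H B p} :=
    ⟨fun i j hij => e.symm.strictMono (hr hij), fun i j hij => e.symm.strictMono (hc hij), hcon⟩
  rw [hB] at this
  exact this

theorem diffCount_eq (e : Fin n ≃o ι) (a : ι → ι → Bool) (B : Fin n → Fin n → Bool) :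
    diffCount (pull e a) B = Nat.card {p : ι × ι // a p.1 p.2 ≠ push e B p.1 p.2} := by
  unfold diffCount
  rw [← Nat.card_coe_set_eq]
  refine Nat.card_congr (Equiv.subtypeEquiv (Equiv.prodCongr e.toEquiv e.toEquiv) ?_)
  rintro ⟨i, j⟩
  simp [pull, push]

theorem numCopies_false (H : Fin k → Fin k → Bool) (i j : Fin k) (h : H i j = true) :
    numCopies H (fun _ _ : Fin n => false) = 0 := by
  unfold numCopies
  rw [Set.ncard_eq_zero (Set.toFinite _)]
  ext p
  simp only [Set.mem_ofPred_eq, Set.mem_empty_iff_false, iff_false]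
  rintro ⟨_, _, h3⟩
  have := h3 i j
  rw [h] at this
  exact absurd this (by simp)

theorem le_distFree (A : Fin n → Fin n → Bool) (H : Fin k → Fin k → Bool) (i₀ j₀ : Fin k)
    (h : H i₀ j₀ = true) (m : ℝ) (hm : ∀ B, numCopies H B = 0 → m ≤ (diffCount A B : ℝ)) :
    m / (n : ℝ) ^ 2 ≤ distFree H A := by
  unfold distFree
  have : Nonempty {B : Fin n → Fin n → Bool // numCopies H B = 0} :=
    ⟨⟨_, numCopies_false H i₀ j₀ h⟩⟩
  refine div_le_div_of_nonneg_right ?_ (by positivity)
  exact le_ciInf fun B => hm B.1 B.2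

end Vale.Agent.P037
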