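import Vale.Agent.P037.Order
import Vale.Agent.P037.Transport
import Vale.Agent.P037.Asymp

namespace Vale.Agent.P037

def NoCopyT (T : ℕ) : Prop :=
  ∀ (xr : Fin 5 → Cls T) (lr : Fin 5 → Lbl T) (xc : Fin 5 → Cls T) (lc : Fin 5 → Lbl T),
    (∀ i j, i ≤ j → kle (xr i) (lr i) (xr j) (lr j)) →
    (∀ i j, i ≤ j → kle (xc i) (lc i) (xc j) (lc j)) →
    (∀ i j, ent (xr i) (lr i) (xc j) (lc j) = H5 i j) →
    ∃ i j, xr i = .X ∧ xc j = .X ∧ lr i = lc j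

def FarTM (T M : ℕ) : Prop :=
  ∀ B : Idx T M → Idx T M → Bool,
    (∀ r c : Fin 5 → Idx T M, StrictMono r → StrictMono c → ∃ i j, B (r i) (c j) ≠ H5 i j) →
    (2 ^ T * M) ^ 2 ≤ 3 * Nat.card {p : Idx T M × Idx T M //
      ent p.1.1 p.1.2.1 p.2.1 p.2.2.1 ≠ B p.1 p.2}

def CountTM (T M : ℕ) : Prop :=
  Nat.card {q : (Fin 5 → Idx T M) × (Fin 5 → Idx T M) //
    ∃ i j, (q.1 i).1 = .X ∧ (q.2 j).1 = .X ∧ (q.1 i).2.1 = (q.2 j).2.1} ≤
    25 * (2 ^ T * M ^ 2) * (Fintype.card (Idx T M)) ^ 8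

theorem main_T {T M : ℕ} (hM : 1 ≤ M)
    (hcard : Fintype.card (Idx T M) = (6 * T + 12) * (2 ^ T * M))
    (hno : NoCopyT T) (hfar : FarTM T M) (hcount : CountTM T M) :
    ∃ A : Fin ((6 * T + 12) * (2 ^ T * M)) → Fin ((6 * T + 12) * (2 ^ T * M)) → Bool,
      1 / (3 * (6 * (T : ℝ) + 12) ^ 2) ≤ distFree H5 A ∧
      (numCopies H5 A : ℝ) ≤
        25 * (1 / 2 : ℝ) ^ T * (((6 * T + 12) * (2 ^ T * M) : ℕ) : ℝ) ^ 10 := by
  have hM0 : (0 : ℝ) < M := by exact_mod_cast hM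
  set n : ℕ := (6 * T + 12) * (2 ^ T * M) with hn
  have hnR : (n : ℝ) = (6 * (T : ℝ) + 12) * (2 ^ T * M) := by
    rw [hn]; push_cast; ring
  set e : Fin n ≃o Idx T M := Fintype.orderIsoFinOfCardEq (Idx T M) hcard with he
  set a : Idx T M → Idx T M → Bool := fun x y => ent x.1 x.2.1 y.1 y.2.1 with ha
  refine ⟨pull e a, ?_, ?_⟩
  · have h1 := le_distFree (pull e a) H5 0 0 (by decide) (((2 : ℝ) ^ T * M) ^ 2 / 3) (by
      intro B hB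
      rw [diffCount_eq e a B]
      have h2 := hfar (push e B) (fun r c hr hc => free_push e B H5 hB r c hr hc)
      have h3 : (((2 ^ T * M) ^ 2 : ℕ) : ℝ) ≤ ((3 * Nat.card {p : Idx T M × Idx T M //
          ent p.1.1 p.1.2.1 p.2.1 p.2.2.1 ≠ push e B p.1 p.2} : ℕ) : ℝ) := Nat.cast_le.2 h2
      push_cast at h3
      rw [ha]
      linarith)
    refine le_trans (le_of_eq ?_) h1
    rw [hnR]
    have h4 : (0 : ℝ) < 2 ^ T := by positivity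
    have h5 : (0 : ℝ) < 6 * (T : ℝ) + 12 := by positivity
    field_simp
  · have h1 : numCopies H5 (pull e a) ≤ 25 * (2 ^ T * M ^ 2) * n ^ 8 := by
      refine (numCopies_le e a H5 _ ?_).trans (hcount.trans (le_of_eq (by rw [hcard])))
      intro q h2 h3 h4
      exact hno (fun i => (q.1 i).1) (fun i => (q.1 i).2.1) (fun i => (q.2 i).1)
        (fun i => (q.2 i).2.1) (fun i j hij => kle_of_le (h2.monotone hij))
        (fun i j hij => kle_of_le (h3.monotone hij)) h4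
    have h2 : (numCopies H5 (pull e a) : ℝ) ≤ 25 * (2 ^ T * (M : ℝ) ^ 2) * (n : ℝ) ^ 8 := by
      exact_mod_cast h1
    refine h2.trans ?_
    have h3 : (2 : ℝ) ^ T * M ≤ n := by
      rw [hnR]
      have h4 : (0 : ℝ) < 2 ^ T * M := by positivity
      have h5 : (0 : ℝ) ≤ T := Nat.cast_nonneg T
      nlinarith
    have h4 : (2 : ℝ) ^ T * (M : ℝ) ^ 2 ≤ (1 / 2 : ℝ) ^ T * (n : ℝ) ^ 2 := by
      calc (2 : ℝ) ^ T * (M : ℝ) ^ 2 = (1 / 2 : ℝ) ^ T * (2 ^ T * M) ^ 2 := by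
            rw [one_div, inv_pow]
            have : (2 : ℝ) ^ T ≠ 0 := by positivity
            field_simp
        _ ≤ _ := by
            refine mul_le_mul_of_nonneg_left ?_ (by positivity)
            exact pow_le_pow_left₀ (by positivity) h3 2
    calc 25 * (2 ^ T * (M : ℝ) ^ 2) * (n : ℝ) ^ 8 ≤
          25 * ((1 / 2 : ℝ) ^ T * (n : ℝ) ^ 2) * (n : ℝ) ^ 8 := by gcongr
      _ = 25 * (1 / 2 : ℝ) ^ T * (n : ℝ) ^ 10 := by ring

theorem final_strong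
    (hcard : ∀ T M, Fintype.card (Idx T M) = (6 * T + 12) * (2 ^ T * M))
    (hno : ∀ T, NoCopyT T) (hfar : ∀ T M, 1 ≤ T → 1 ≤ M → FarTM T M)
    (hcount : ∀ T M, CountTM T M) :
    ∀ c C : ℝ, 0 < c → ∃ ε : ℝ, 0 < ε ∧ ε < 1 ∧ ∀ n₀ : ℕ, ∃ n : ℕ, n₀ ≤ n ∧ 1 ≤ n ∧
      ∃ A : Fin n → Fin n → Bool, ε ≤ distFree H5 A ∧
        (numCopies H5 A : ℝ) < c * ε ^ C * (n : ℝ) ^ (2 * 5) := by
  intro c C hc
  obtain ⟨T, hT, hTc⟩ := asymp c C hc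
  have hT0 : (0 : ℝ) ≤ T := Nat.cast_nonneg T
  refine ⟨1 / (3 * (6 * (T : ℝ) + 12) ^ 2), by positivity, ?_, fun n₀ => ?_⟩
  · rw [div_lt_one (by positivity)]
    nlinarith
  · have hM : 1 ≤ n₀ + 1 := Nat.le_add_left 1 n₀
    obtain ⟨A, hA1, hA2⟩ := main_T hM (hcard T (n₀ + 1)) (hno T) (hfar T (n₀ + 1) hT hM)
      (hcount T (n₀ + 1))
    have h1 : n₀ + 1 ≤ (6 * T + 12) * (2 ^ T * (n₀ + 1)) := by
      have h2 : 1 ≤ 2 ^ T := Nat.one_le_two_pow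
      have h3 : n₀ + 1 ≤ 2 ^ T * (n₀ + 1) := Nat.le_mul_of_pos_left _ h2
      exact h3.trans (Nat.le_mul_of_pos_left _ (by omega))
    refine ⟨(6 * T + 12) * (2 ^ T * (n₀ + 1)), by omega, by omega, A, hA1, ?_⟩
    refine lt_of_le_of_lt hA2 ?_
    have hn : (0 : ℝ) < (((6 * T + 12) * (2 ^ T * (n₀ + 1)) : ℕ) : ℝ) := by
      exact_mod_cast (by omega : 0 < (6 * T + 12) * (2 ^ T * (n₀ + 1)))
    have hn10 : (0 : ℝ) < (((6 * T + 12) * (2 ^ T * (n₀ + 1)) : ℕ) : ℝ) ^ 10 := by positivity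
    exact mul_lt_mul_of_pos_right hTc hn10

theorem final
    (hcard : ∀ T M, Fintype.card (Idx T M) = (6 * T + 12) * (2 ^ T * M))
    (hno : ∀ T, NoCopyT T) (hfar : ∀ T M, 1 ≤ T → 1 ≤ M → FarTM T M)
    (hcount : ∀ T M, CountTM T M) : ¬ PolyRemoval := by
  intro h
  obtain ⟨c, C, hc, _, hcC⟩ := h 5 (by norm_num) H5
  obtain ⟨ε, hε, hε1, h2⟩ := final_strong hcard hno hfar hcount c C hc
  obtain ⟨n, _, hn1, A, hA1, hA2⟩ := h2 0
  exact absurd (hcC n hn1 ε hε hε1 A hA1) (not_le.2 hA2)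

end Vale.Agent.P037
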