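import Vale.Agent.P037.Cases
import Vale.Agent.P037.Defs

namespace Vale.Agent.P037

variable {T : ℕ}

theorem rOUf : region (.OU false : Cls T) = 0 := rfl
theorem rOUt : region (.OU true : Cls T) = 6 := rfl
theorem rOf (κ : Clr T) : region (.O false κ : Cls T) = 1 := rfl
theorem rOt (κ : Clr T) : region (.O true κ : Cls T) = 5 := rfl
theorem rIf : region (.I false : Cls T) = 2 := rfl
theorem rIt : region (.I true : Cls T) = 4 := rfl
theorem rB (a : Bool) (s : Fin (T + 1)) : region (.B a s : Cls T) = 3 := rfl
theorem rX : region (.X : Cls T) = 3 := rfl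
theorem rM : region (.M : Cls T) = 3 := rfl

theorem ent_col_congr {x : Cls T} {l m m' : Lbl T} {a : Bool} {s : Fin (T + 1)}
    (h : agree s.val m m' = true) : ent x l (.B a s) m = ent x l (.B a s) m' := by
  have hag : agree s.val l m = agree s.val l m' := by
    rw [Bool.eq_iff_iff]
    exact ⟨fun q => agree_trans q h, fun q => agree_trans q (agree_symm h)⟩
  cases x with
  | O b κ =>
    cases κ with
    | reg s' c =>
      show Whit (.reg s' c) (.B a s) m = Whit (.reg s' c) (.B a s) m'
      simp only [Whit]
      by_cases hs : s.val = s'.val + 1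
      · rw [agree_iff] at h
        rw [h s' (by omega)]
      · have hs' : (s.val == s'.val + 1) = false := by simpa using hs
        rw [hs', Bool.false_and, Bool.false_and]
    | _ => rfl
  | X => simp [ent, hag]
  | B b u => simp [ent, hag]
  | _ => rfl

theorem left_see {κ : Clr T} {y : Cls T} {l m : Lbl T} (h : ent (.O false κ) l y m = true) :
    isCore y = true ∨ y = .O false κ := by
  cases y with
  | O b κ' =>
    simp [ent] at h
    obtain ⟨rfl, rfl⟩ := h
    exact Or.inr rfl
  | B a s => exact Or.inl rfl
  | X => exact Or.inl rfl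
  | M => exact Or.inl rfl
  | _ => simp [ent] at h

theorem right_see {κ : Clr T} {y : Cls T} {l m : Lbl T} (h : ent (.O true κ) l y m = true) :
    isCore y = true ∨ y = .O true κ := by
  cases y with
  | O b κ' =>
    simp [ent] at h
    obtain ⟨rfl, rfl⟩ := h
    exact Or.inr rfl
  | B a s => exact Or.inl rfl
  | X => exact Or.inl rfl
  | M => exact Or.inl rfl
  | _ => simp [ent] at h

theorem case_alpha {κ : Clr T} {r2 r4 c0 c1 c2 c3 : Cls T} {l0 l2 l4 m0 m1 m2 m3 : Lbl T}
    (hr2 : isRow r2) (hc2 : isCore c2 = true)
    (C01 : kle c0 m0 c1 m1) (C12 : kle c1 m1 c2 m2) (C23 : kle c2 m2 c3 m3)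
    (h00 : ent (.O false κ) l0 c0 m0 = true) (h01 : ent (.O false κ) l0 c1 m1 = true)
    (h02 : ent (.O false κ) l0 c2 m2 = true) (h03 : ent (.O false κ) l0 c3 m3 = true)
    (h20 : ent r2 l2 c0 m0 = true) (h21 : ent r2 l2 c1 m1 = true)
    (h22 : ent r2 l2 c2 m2 = false) (h23 : ent r2 l2 c3 m3 = true)
    (h40 : ent r4 l4 c0 m0 = false) (h41 : ent r4 l4 c1 m1 = true) :
    r2 = .X ∧ c2 = .X ∧ l2 = m2 := by
  have g2 := region_core hc2
  have k01 := kle_region C01
  have k23 := kle_region C23
  have hc3 : isCore c3 = true := by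
    rcases left_see h03 with h | h
    · exact h
    · subst h; simp only [rOUf, rOUt, rOf, rOt, rIf, rIt, rB, rX, rM] at k23; omega
  have hc1 : isCore c1 = true := by
    rcases left_see h01 with h | h
    · exact h
    · exfalso
      subst h
      rcases left_see h00 with h | h
      · have := region_core h
        rw [this] at k01
        simp only [rOUf, rOUt, rOf, rOt, rIf, rIt, rB, rX, rM] at k01; omega
      · subst h
        rw [ent_col_nc rfl l4 m0 m1, h41] at h40
        cases h40
  rw [ent_O_core hc1] at h01
  rw [ent_O_core hc2] at h02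
  rw [ent_O_core hc3] at h03
  obtain ⟨s, rfl, rfl, ha1, ha3, hall, hz⟩ :=
    mid hr2 hc1 hc2 hc3 C12 C23 h01 h02 h03 h21 h22 h23
  rcases left_see h00 with h | h
  · exfalso
    rw [ent_O_core h] at h00
    obtain ⟨a, rfl, ha0⟩ := hall c0 m0 h h00 h20
    have w01 := words_le C01 (by simp [region])
    have q := lex_le_at _ _ w01 s.val (fun j hj => by
      have e0 := word_of_agree (x := (.B a s : Cls T)) (Or.inr ⟨_, _, rfl⟩) (t := s.val)
        (by simp [lev]) (agree_symm ha0) j hj
      have e1 := word_of_agree (x := (.B false s : Cls T)) (Or.inr ⟨_, _, rfl⟩) (t := s.val)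
        (by simp [lev]) (agree_symm ha1) j hj
      exact e0.trans e1.symm)
    have q' : word (.B a s) m0 s.val ≤ word (.B false s) m1 s.val := q
    rw [word_at, word_at] at q'
    have ha : a = false := by
      cases a
      · rfl
      · simp at q'
    subst ha
    rw [ent_col_congr (agree_trans (agree_symm ha0) ha1), h41] at h40
    cases h40
  · subst h
    rw [ent_row_O hr2] at h20
    exact hz h20

theorem case_beta {κ : Clr T} {r0 r2 c1 c2 c3 c4 : Cls T} {l0 l2 l4 m1 m2 m3 m4 : Lbl T}
    (hr2 : isRow r2) (hc2 : isCore c2 = true)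
    (C12 : kle c1 m1 c2 m2) (C23 : kle c2 m2 c3 m3) (C34 : kle c3 m3 c4 m4)
    (h41 : ent (.O true κ) l4 c1 m1 = true) (h42 : ent (.O true κ) l4 c2 m2 = true)
    (h43 : ent (.O true κ) l4 c3 m3 = true) (h44 : ent (.O true κ) l4 c4 m4 = true)
    (h21 : ent r2 l2 c1 m1 = true)
    (h22 : ent r2 l2 c2 m2 = false) (h23 : ent r2 l2 c3 m3 = true)
    (h24 : ent r2 l2 c4 m4 = true)
    (h03 : ent r0 l0 c3 m3 = true) (h04 : ent r0 l0 c4 m4 = false) :
    r2 = .X ∧ c2 = .X ∧ l2 = m2 := by
  have g2 := region_core hc2
  have k12 := kle_region C12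
  have k34 := kle_region C34
  have hc1 : isCore c1 = true := by
    rcases right_see h41 with h | h
    · exact h
    · subst h; simp only [rOUf, rOUt, rOf, rOt, rIf, rIt, rB, rX, rM] at k12; omega
  have hc3 : isCore c3 = true := by
    rcases right_see h43 with h | h
    · exact h
    · exfalso
      subst h
      rcases right_see h44 with h | h
      · have := region_core h
        rw [this] at k34
        simp only [rOUf, rOUt, rOf, rOt, rIf, rIt, rB, rX, rM] at k34; omega
      · subst h
        rw [ent_col_nc rfl l0 m4 m3, h03] at h04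
        cases h04
  rw [ent_O_core hc1] at h41
  rw [ent_O_core hc2] at h42
  rw [ent_O_core hc3] at h43
  obtain ⟨s, rfl, rfl, ha1, ha3, hall, hz⟩ :=
    mid hr2 hc1 hc2 hc3 C12 C23 h41 h42 h43 h21 h22 h23
  rcases right_see h44 with h | h
  · exfalso
    rw [ent_O_core h] at h44
    obtain ⟨a, rfl, ha4⟩ := hall c4 m4 h h44 h24
    have w34 := words_le C34 (by simp [region])
    have q := lex_le_at _ _ w34 s.val (fun j hj => by
      have e4 := word_of_agree (x := (.B a s : Cls T)) (Or.inr ⟨_, _, rfl⟩) (t := s.val)
        (by simp [lev]) (agree_symm ha4) j hj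
      have e3 := word_of_agree (x := (.B true s : Cls T)) (Or.inr ⟨_, _, rfl⟩) (t := s.val)
        (by simp [lev]) (agree_symm ha3) j hj
      exact e3.trans e4.symm)
    have q' : word (.B true s) m3 s.val ≤ word (.B a s) m4 s.val := q
    rw [word_at, word_at] at q'
    have ha : a = true := by
      cases a
      · simp at q'
      · rfl
    subst ha
    rw [← ent_col_congr (agree_trans (agree_symm ha3) ha4), h03] at h04
    cases h04
  · subst h
    rw [ent_row_O hr2] at h24
    exact hz h24

theorem case_gamma {r0 r1 r2 r3 r4 c0 c2 c4 : Cls T} {l0 l1 l2 l3 l4 m0 m2 m4 : Lbl T}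
    (hr2 : isRow r2) (hc2 : isCore c2 = true)
    (hr0 : ∀ κ, r0 ≠ .O false κ) (hr4 : ∀ κ, r4 ≠ .O true κ)
    (R01 : kle r0 l0 r1 l1) (R12 : kle r1 l1 r2 l2) (R23 : kle r2 l2 r3 l3)
    (R34 : kle r3 l3 r4 l4)
    (C02 : region c0 ≤ region c2) (C24 : region c2 ≤ region c4)
    (h00 : ent r0 l0 c0 m0 = true) (h02 : ent r0 l0 c2 m2 = true)
    (h04 : ent r0 l0 c4 m4 = false)
    (h10 : ent r1 l1 c0 m0 = true) (h12 : ent r1 l1 c2 m2 = true)
    (h14 : ent r1 l1 c4 m4 = true)
    (h20 : ent r2 l2 c0 m0 = true) (h22 : ent r2 l2 c2 m2 = false)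
    (h24 : ent r2 l2 c4 m4 = true)
    (h30 : ent r3 l3 c0 m0 = true) (h32 : ent r3 l3 c2 m2 = true)
    (h34 : ent r3 l3 c4 m4 = true)
    (h40 : ent r4 l4 c0 m0 = false) (h42 : ent r4 l4 c2 m2 = true)
    (h44 : ent r4 l4 c4 m4 = true) : False := by
  have g2 := region_core (isRow_core hr2)
  have gc2 := region_core hc2
  have k01 := kle_region R01
  have k12 := kle_region R12
  have k23 := kle_region R23
  have k34 := kle_region R34
  by_cases hr1 : isCore r1 = true
  · have row1 := isRow_of_ent hr1 h12
    by_cases hr3 : isCore r3 = true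
    · have row3 := isRow_of_ent hr3 h32
      have := ent_conv row1 hr2 row3 hc2 R12 R23 h12 h32
      rw [h22] at this
      cases this
    · have h3 : r3 = .I true ∨ (∃ κ, r3 = .O true κ) ∨ r3 = .OU true := by
        rcases r3 with (_ | _) | ⟨(_ | _), κ⟩ | (_ | _) | _ | _ | _ <;>
          first
          | (exfalso; simp [isCore] at hr3; done)
          | (exfalso; simp only [rOUf, rOUt, rOf, rOt, rIf, rIt, rB, rX, rM] at k23; omega)
          | exact Or.inl rfl
          | exact Or.inr (Or.inl ⟨_, rfl⟩)
          | exact Or.inr (Or.inr rfl)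
      have h4 : r4 = .I true ∨ r4 = .OU true := by
        have : 4 ≤ region r4 := by
          rcases h3 with rfl | ⟨κ, rfl⟩ | rfl <;> (simp only [rOUf, rOUt, rOf, rOt, rIf, rIt, rB, rX, rM] at k34; omega)
        rcases r4 with (_ | _) | ⟨(_ | _), κ⟩ | (_ | _) | _ | _ | _ <;>
          first
          | (exfalso; simp only [rOUf, rOUt, rOf, rOt, rIf, rIt, rB, rX, rM] at this; omega)
          | (exfalso; exact hr4 _ rfl)
          | exact Or.inl rfl
          | exact Or.inr rfl
      rcases h4 with rfl | rfl
      · have : r3 = .I true := by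
          rcases h3 with rfl | ⟨κ, rfl⟩ | rfl
          · rfl
          · simp only [rOUf, rOUt, rOf, rOt, rIf, rIt, rB, rX, rM] at k34; omega
          · simp only [rOUf, rOUt, rOf, rOt, rIf, rIt, rB, rX, rM] at k34; omega
        subst this
        rw [ent_row_nc rfl l4 l3, h30] at h40
        cases h40
      · rcases h3 with rfl | ⟨κ, rfl⟩ | rfl
        · have hc0 : ∃ κ, c0 = .O false κ := by
            rcases c0 with (_ | _) | ⟨(_ | _), κ⟩ | (_ | _) | _ | _ | _ <;>
              first
              | (exfalso; simp [ent] at h30; done)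
              | (exfalso; simp [ent] at h40; done)
              | exact ⟨_, rfl⟩
              | (exfalso; simp only [rOUf, rOUt, rOf, rOt, rIf, rIt, rB, rX, rM] at C02; omega)
          obtain ⟨κ, rfl⟩ := hc0
          have hc4 : isCore c4 = true := by
            rcases c4 with (_ | _) | ⟨(_ | _), κ⟩ | (_ | _) | _ | _ | _ <;>
              first
              | rfl
              | (exfalso; simp [ent] at h34; done)
              | (exfalso; simp [ent] at h44; done)
          have row0 : isRow r0 := by
            have hcore : isCore r0 = true := by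
              rcases r0 with (_ | _) | ⟨(_ | _), κ'⟩ | (_ | _) | _ | _ | _ <;>
                first
                | rfl
                | (exfalso; simp [ent] at h00; done)
                | (exfalso; exact hr0 _ rfl)
                | (exfalso; rw [ent_I_core hc4] at h04; cases h04; done)
                | (exfalso; simp only [rOUf, rOUt, rOf, rOt, rIf, rIt, rB, rX, rM] at k01; omega)
            exact isRow_of_ent hcore h00
          exact ent_comp row0 row1 hr2 hc2 hc4 h02 h12 h22 h04 h14 h24
        · rcases right_see h30 with h | h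
          · rw [ent_OU_core h] at h40
            cases h40
          · subst h
            simp only [rOUf, rOUt, rOf, rOt, rIf, rIt, rB, rX, rM] at C02; omega
        · rw [ent_row_nc rfl l4 l3, h30] at h40
          cases h40
  · have h1 : r1 = .I false ∨ (∃ κ, r1 = .O false κ) ∨ r1 = .OU false := by
      rcases r1 with (_ | _) | ⟨(_ | _), κ⟩ | (_ | _) | _ | _ | _ <;>
        first
        | (exfalso; simp [isCore] at hr1; done)
        | (exfalso; simp only [rOUf, rOUt, rOf, rOt, rIf, rIt, rB, rX, rM] at k12; omega)
        | exact Or.inl rfl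
        | exact Or.inr (Or.inl ⟨_, rfl⟩)
        | exact Or.inr (Or.inr rfl)
    have h0 : r0 = .I false ∨ r0 = .OU false := by
      have : region r0 ≤ 2 := by
        rcases h1 with rfl | ⟨κ, rfl⟩ | rfl <;> (simp only [rOUf, rOUt, rOf, rOt, rIf, rIt, rB, rX, rM] at k01; omega)
      rcases r0 with (_ | _) | ⟨(_ | _), κ⟩ | (_ | _) | _ | _ | _ <;>
        first
        | (exfalso; simp only [rOUf, rOUt, rOf, rOt, rIf, rIt, rB, rX, rM] at this; omega)
        | (exfalso; exact hr0 _ rfl)
        | exact Or.inl rfl
        | exact Or.inr rfl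
    rcases h0 with rfl | rfl
    · have : r1 = .I false := by
        rcases h1 with rfl | ⟨κ, rfl⟩ | rfl
        · rfl
        · simp only [rOUf, rOUt, rOf, rOt, rIf, rIt, rB, rX, rM] at k01; omega
        · simp only [rOUf, rOUt, rOf, rOt, rIf, rIt, rB, rX, rM] at k01; omega
      subst this
      rw [ent_row_nc rfl l0 l1, h14] at h04
      cases h04
    · rcases h1 with rfl | ⟨κ, rfl⟩ | rfl
      · have hc4 : ∃ κ, c4 = .O true κ := by
          rcases c4 with (_ | _) | ⟨(_ | _), κ⟩ | (_ | _) | _ | _ | _ <;>
            first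
            | (exfalso; simp [ent] at h14; done)
            | (exfalso; simp [ent] at h04; done)
            | (exfalso; simp only [rOUf, rOUt, rOf, rOt, rIf, rIt, rB, rX, rM] at C24; omega)
            | exact ⟨_, rfl⟩
        obtain ⟨κ, rfl⟩ := hc4
        have hc0 : isCore c0 = true := by
          rcases c0 with (_ | _) | ⟨(_ | _), κ⟩ | (_ | _) | _ | _ | _ <;>
            first
            | rfl
            | (exfalso; simp [ent] at h10; done)
            | (exfalso; simp [ent] at h00; done)
        have row4 : isRow r4 := by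
          have hcore : isCore r4 = true := by
            rcases r4 with (_ | _) | ⟨(_ | _), κ'⟩ | (_ | _) | _ | _ | _ <;>
              first
              | rfl
              | (exfalso; simp [ent] at h44; done)
              | (exfalso; exact hr4 _ rfl)
              | (exfalso; rw [ent_I_core hc0] at h40; cases h40; done)
              | (exfalso; simp only [rOUf, rOUt, rOf, rOt, rIf, rIt, rB, rX, rM] at k34; omega)
          exact isRow_of_ent hcore h44
        have g4 := region_core (isRow_core row4)
        have row3 : isRow r3 := isRow_of_ent (core_of_region (by omega)) h32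
        exact ent_comp hr2 row3 row4 hc0 hc2 h20 h30 h40 h22 h32 h42
      · rcases left_see h14 with h | h
        · rw [ent_OU_core h] at h04
          cases h04
        · subst h
          simp only [rOUf, rOUt, rOf, rOt, rIf, rIt, rB, rX, rM] at C24; omega
      · rw [ent_row_nc rfl l0 l1, h14] at h04
        cases h04

end Vale.Agent.P037
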