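import Vale.Agent.P037.Core

namespace Vale.Agent.P037

variable {T : ℕ}

theorem word_at {a : Bool} {s : Fin (T + 1)} (l : Lbl T) :
    word (.B a s) l s.val = if a then 4 else 0 := by
  simp [word]

theorem left_of_word_le {a : Bool} {s : Fin (T + 1)} {l m : Lbl T}
    (h : word (.B a s) l s.val ≤ digit m s.val) : a = false := by
  rw [word_at] at h
  have := digit_ne_zero m s.val
  cases a
  · rfl
  · simp at h; omega

theorem right_of_le_word {a : Bool} {s : Fin (T + 1)} {l m : Lbl T}
    (h : digit m s.val ≤ word (.B a s) l s.val) : a = true := by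
  rw [word_at] at h
  have := digit_ne_zero m s.val
  cases a
  · simp at h; omega
  · rfl

theorem mid {κ : Clr T} {x c1 c2 c3 : Cls T} {l m1 m2 m3 : Lbl T} (hx : isRow x)
    (hc1 : isCore c1 = true) (hc2 : isCore c2 = true) (hc3 : isCore c3 = true)
    (h12 : kle c1 m1 c2 m2) (h23 : kle c2 m2 c3 m3)
    (hw1 : Whit κ c1 m1 = true) (hw2 : Whit κ c2 m2 = true) (hw3 : Whit κ c3 m3 = true)
    (he1 : ent x l c1 m1 = true) (he2 : ent x l c2 m2 = false)
    (he3 : ent x l c3 m3 = true) :
    ∃ s : Fin (T + 1), c1 = .B false s ∧ c3 = .B true s ∧ agree s.val l m1 = true ∧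
      agree s.val l m3 = true ∧
      (∀ c m, isCore c = true → Whit κ c m = true → ent x l c m = true →
        ∃ a, c = .B a s ∧ agree s.val l m = true) ∧
      (Zhit κ x l = true → x = .X ∧ c2 = .X ∧ l = m2) := by
  have r1 := region_core hc1
  have r2 := region_core hc2
  have r3 := region_core hc3
  have w12 := words_le h12 (by omega)
  have w23 := words_le h23 (by omega)
  have he1' := he1
  have he3' := he3
  rw [core_ent hx hc1] at he1
  rw [core_ent hx hc3] at he3
  obtain ⟨a1, t1, rfl, h1a, h1b⟩ := he1
  obtain ⟨a3, t3, rfl, h3a, h3b⟩ := he3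
  have row1 : isRow (.B a1 t1 : Cls T) := Or.inr ⟨_, _, rfl⟩
  have row3 : isRow (.B a3 t3 : Cls T) := Or.inr ⟨_, _, rfl⟩
  have ht1 : t1.val ≤ T := by omega
  have ht3 : t3.val ≤ T := by omega
  have hpre : ∀ s, s ≤ t1.val → s ≤ t3.val → ∀ j < s, word c2 m2 j = digit l j := by
    intro s hs1 hs3 j hj
    have e1 : ∀ j < s, word (.B a1 t1) m1 j = digit l j := by
      intro j hj
      exact word_of_agree row1 (t := t1.val) (by simp [lev]) (agree_symm h1b) j (by omega)
    have e3 : ∀ j < s, word (.B a3 t3) m3 j = digit l j := by
      intro j hj
      exact word_of_agree row3 (t := t3.val) (by simp [lev]) (agree_symm h3b) j (by omega)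
    have := lex_conv _ _ _ w12 w23 s (fun j hj => by
      show word (.B a1 t1) m1 j = word (.B a3 t3) m3 j
      rw [e1 j hj, e3 j hj]) j hj
    exact this.trans (e1 j hj)
  cases κ with
  | circ =>
    exfalso
    simp [Whit] at hw1 hw3
    obtain ⟨rfl, h1⟩ := hw1
    obtain ⟨rfl, h3⟩ := hw3
    have g1 : word (.B true t1 : Cls T) m1 0 = 4 := by simp [word, h1]
    have g3 : word (.B true t3 : Cls T) m3 0 = 4 := by simp [word, h3]
    have q1 := lex_le_at _ _ w12 0 (by simp)
    have q3 := lex_le_at _ _ w23 0 (by simp)
    rw [g1] at q1
    rw [g3] at q3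
    cases c2 with
    | X =>
      have := digit_ne_zero m2 0
      simp [word] at q1
      omega
    | M => simp [word] at q1
    | B a2 t2 =>
      simp [Whit] at hw2
      have : ent x l (.B a2 t2) m2 = true := by
        rw [core_ent hx rfl]
        refine ⟨a2, t2, rfl, ?_, ?_⟩
        · rw [hw2.2]; simp
        · rw [hw2.2, agree_iff]; simp
      simp [this] at he2
    | _ => simp [isCore] at hc2
  | star =>
    simp [Whit] at hw1 hw3
    have hpT := hpre T (by omega) (by omega)
    cases c2 with
    | M => simp [Whit] at hw2
    | B a2 t2 =>
      exfalso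
      simp [Whit] at hw2
      have row2 : isRow (.B a2 t2 : Cls T) := Or.inr ⟨_, _, rfl⟩
      have : ent x l (.B a2 t2) m2 = true := by
        rw [core_ent hx rfl]
        refine ⟨a2, t2, rfl, by omega, ?_⟩
        rw [hw2]
        exact agree_symm (agree_of_word row2 m2 l T le_rfl hpT)
      simp [this] at he2
    | X =>
      have row2 : isRow (.X : Cls T) := Or.inl rfl
      have hl : l = m2 := by
        have := agree_of_word row2 m2 l T le_rfl hpT
        rw [agree_iff] at this
        funext j
        exact (this j j.isLt).symm
      have ht13 : t3 = t1 := Fin.ext (by omega)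
      subst ht13
      have q1 : word (.B a1 t3 : Cls T) m1 t3.val ≤ digit m2 t3.val := by
        have := lex_le_at _ _ w12 t3.val (fun j hj => by
          show word (.B a1 t3) m1 j = word .X m2 j
          rw [hpT j (by omega)]
          exact word_of_agree row1 (t := t3.val) (by simp [lev]) (agree_symm h1b) j (by omega))
        refine this.trans (le_of_eq ?_)
        exact word_lev row2 m2 t3.val (by simp [lev]; omega)
      have q3 : digit m2 t3.val ≤ word (.B a3 t3 : Cls T) m3 t3.val := by
        have := lex_le_at _ _ w23 t3.val (fun j hj => by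
          show word .X m2 j = word (.B a3 t3) m3 j
          rw [hpT j (by omega)]
          exact (word_of_agree row3 (t := t3.val) (by simp [lev]) (agree_symm h3b) j (by omega)).symm)
        refine (le_of_eq ?_).trans this
        exact (word_lev row2 m2 t3.val (by simp [lev]; omega)).symm
      have ha1 := left_of_word_le q1
      have ha3 := right_of_le_word q3
      subst ha1 ha3
      refine ⟨t3, rfl, rfl, h1b, h3b, ?_, ?_⟩
      · intro c m hc hw he
        rw [core_ent hx hc] at he
        obtain ⟨a, t, rfl, _, h4⟩ := he
        simp [Whit] at hw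
        have : t = t3 := Fin.ext (by omega)
        subst this
        exact ⟨a, rfl, h4⟩
      · intro hz
        cases x with
        | X => exact ⟨rfl, rfl, hl⟩
        | _ => simp [Zhit] at hz
    | _ => simp [isCore] at hc2
  | reg s c =>
    simp [Whit] at hw1 hw3
    have hs1 : s.val ≤ t1.val := by omega
    have hs3 : s.val ≤ t3.val := by omega
    have hps := hpre s.val hs1 hs3
    cases c2 with
    | X => simp [Whit] at hw2
    | M => simp [Whit] at hw2
    | B a2 t2 =>
      have row2 : isRow (.B a2 t2 : Cls T) := Or.inr ⟨_, _, rfl⟩
      have hag : agree s.val m2 l = true := agree_of_word row2 m2 l s.val (by omega) hps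
      simp [Whit] at hw2
      have hw2' : t2.val = s.val + 1 ∧ m2 s = c := by
        rcases hw2 with h | h
        · exfalso
          have : ent x l (.B a2 t2) m2 = true := by
            rw [core_ent hx rfl]
            refine ⟨a2, t2, rfl, by omega, ?_⟩
            rw [h]
            exact agree_symm hag
          simp [this] at he2
        · exact h
      have hP : ¬ (s.val + 1 ≤ lev x ∧ l s = c) := by
        rintro ⟨p1, p2⟩
        have : ent x l (.B a2 t2) m2 = true := by
          rw [core_ent hx rfl]
          refine ⟨a2, t2, rfl, by omega, ?_⟩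
          rw [hw2'.1, agree_iff]
          intro j hj
          rcases Nat.lt_succ_iff_lt_or_eq.mp hj with h | h
          · rw [agree_iff] at hag
            exact (hag j h).symm
          · have : j = s := Fin.ext h
            subst this
            rw [p2, hw2'.2]
        simp [this] at he2
      have hall : ∀ c' m, isCore c' = true → Whit (.reg s c) c' m = true →
          ent x l c' m = true → ∃ a t, c' = .B a t ∧ t.val = s.val ∧ agree s.val l m = true := by
        intro c' m hc hw he
        rw [core_ent hx hc] at he
        obtain ⟨a, t, rfl, h3, h4⟩ := he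
        simp [Whit] at hw
        have : t.val = s.val := by
          rcases hw with h | h
          · exact h
          · exfalso
            apply hP
            refine ⟨by omega, ?_⟩
            rw [agree_iff] at h4
            rw [h4 s (by omega), h.2]
        refine ⟨a, t, rfl, this, ?_⟩
        rw [← this]; exact h4
      obtain ⟨_, _, e1, e1', _⟩ := hall _ _ rfl (by simpa [Whit] using hw1) he1'
      injection e1 with _ e1
      subst e1
      obtain ⟨_, _, e3, e3', _⟩ := hall _ _ rfl (by simpa [Whit] using hw3) he3'
      injection e3 with _ e3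
      subst e3
      have ht13 : t3 = t1 := Fin.ext (by omega)
      subst ht13
      have q1 : word (.B a1 t3 : Cls T) m1 t3.val ≤ digit m2 t3.val := by
        have := lex_le_at _ _ w12 t3.val (fun j hj => by
          show word (.B a1 t3) m1 j = word (.B a2 t2) m2 j
          rw [hps j (by omega)]
          exact word_of_agree row1 (t := t3.val) (by simp [lev]) (agree_symm h1b) j (by omega))
        refine this.trans (le_of_eq ?_)
        exact word_lev row2 m2 t3.val (by simp [lev]; omega)
      have q3 : digit m2 t3.val ≤ word (.B a3 t3 : Cls T) m3 t3.val := by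
        have := lex_le_at _ _ w23 t3.val (fun j hj => by
          show word (.B a2 t2) m2 j = word (.B a3 t3) m3 j
          rw [hps j (by omega)]
          exact (word_of_agree row3 (t := t3.val) (by simp [lev]) (agree_symm h3b) j (by omega)).symm)
        refine (le_of_eq ?_).trans this
        exact (word_lev row2 m2 t3.val (by simp [lev]; omega)).symm
      have ha1 := left_of_word_le q1
      have ha3 := right_of_le_word q3
      subst ha1 ha3
      refine ⟨t3, rfl, rfl, h1b, h3b, ?_, ?_⟩
      · intro c' m hc hw he
        obtain ⟨a, t, rfl, h4, h5⟩ := hall c' m hc hw he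
        have : t = t3 := Fin.ext (by omega)
        subst this
        refine ⟨a, rfl, ?_⟩
        rw [h4]; exact h5
      · intro hz
        exfalso
        cases x with
        | B a t =>
          simp [Zhit] at hz
          apply hP
          refine ⟨?_, hz.2⟩
          simp [lev]; omega
        | _ => simp [Zhit] at hz
    | _ => simp [isCore] at hc2

end Vale.Agent.P037
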