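import Vale.Agent.P037.Construction

namespace Vale.Agent.P037

def Idx (T M : ℕ) : Type := Cls T × (Lbl T × Fin M)

instance (T M : ℕ) : Fintype (Idx T M) := inferInstanceAs (Fintype (Cls T × (Lbl T × Fin M)))

instance (T M : ℕ) : DecidableEq (Idx T M) :=
  inferInstanceAs (DecidableEq (Cls T × (Lbl T × Fin M)))

noncomputable def tie {T M : ℕ} (x : Idx T M) : ℕ := (Fintype.equivFin (Idx T M) x).val

noncomputable def key {T M : ℕ} (x : Idx T M) : ℕ ×ₗ (Lex (ℕ → ℕ) ×ₗ ℕ) :=
  toLex (region x.1, toLex (toLex (word x.1 x.2.1), tie x))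

theorem key_inj (T M : ℕ) : Function.Injective (key : Idx T M → _) := by
  intro x y h
  have h1 : tie x = tie y := by
    have := congrArg (fun z => (ofLex (ofLex z).2).2) h
    exact this
  have h2 : Fintype.equivFin (Idx T M) x = Fintype.equivFin (Idx T M) y := Fin.ext h1
  exact (Fintype.equivFin (Idx T M)).injective h2

noncomputable instance (T M : ℕ) : LinearOrder (Idx T M) := LinearOrder.lift' key (key_inj T M)

def kle {T : ℕ} (x : Cls T) (l : Lbl T) (y : Cls T) (m : Lbl T) : Prop :=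
  region x < region y ∨ (region x = region y ∧ toLex (word x l) ≤ toLex (word y m))

theorem kle_of_le {T M : ℕ} {x y : Idx T M} (h : x ≤ y) : kle x.1 x.2.1 y.1 y.2.1 := by
  have h1 : key x ≤ key y := h
  rw [Prod.Lex.le_iff] at h1
  rcases h1 with h1 | ⟨h1, h2⟩
  · exact Or.inl h1
  · refine Or.inr ⟨h1, ?_⟩
    rw [Prod.Lex.le_iff] at h2
    rcases h2 with h2 | ⟨h2, _⟩
    · exact le_of_lt h2
    · exact le_of_eq h2

theorem lt_of_region {T M : ℕ} {x y : Idx T M} (h : region x.1 < region y.1) : x < y := by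
  have h1 : key x < key y := by
    rw [Prod.Lex.lt_iff]
    exact Or.inl h
  exact h1

theorem lt_of_word {T M : ℕ} {x y : Idx T M} (h : region x.1 = region y.1) (s : ℕ)
    (h1 : ∀ j < s, word x.1 x.2.1 j = word y.1 y.2.1 j)
    (h2 : word x.1 x.2.1 s < word y.1 y.2.1 s) : x < y := by
  have h3 : key x < key y := by
    rw [Prod.Lex.lt_iff]
    refine Or.inr ⟨h, ?_⟩
    rw [Prod.Lex.lt_iff]
    refine Or.inl ?_
    exact ⟨s, h1, h2⟩
  exact h3

end Vale.Agent.P037
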